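import Mathlib

/-! Single-fold Diophantine representations: closure properties. -/

namespace P345

open MvPolynomial

/-- Integer polynomial functions of natural arguments. -/
def IsPoly {α : Type} (f : (α → ℕ) → ℤ) : Prop :=
  ∃ P : MvPolynomial α ℤ, ∀ v, f v = MvPolynomial.eval (fun i => (v i : ℤ)) P

theorem IsPoly.const {α : Type} (c : ℤ) : IsPoly (fun _ : α → ℕ => c) := ⟨C c, by simp⟩

theorem IsPoly.var {α : Type} (i : α) : IsPoly (fun v : α → ℕ => (v i : ℤ)) := ⟨X i, by simp⟩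

theorem IsPoly.add {α : Type} {f g : (α → ℕ) → ℤ} (hf : IsPoly f) (hg : IsPoly g) :
    IsPoly (fun v => f v + g v) := by
  obtain ⟨P, hP⟩ := hf
  obtain ⟨Q, hQ⟩ := hg
  exact ⟨P + Q, fun v => by simp [hP, hQ]⟩

theorem IsPoly.neg {α : Type} {f : (α → ℕ) → ℤ} (hf : IsPoly f) :
    IsPoly (fun v => - f v) := by
  obtain ⟨P, hP⟩ := hf
  exact ⟨-P, fun v => by simp [hP]⟩

theorem IsPoly.sub {α : Type} {f g : (α → ℕ) → ℤ} (hf : IsPoly f) (hg : IsPoly g) :
    IsPoly (fun v => f v - g v) := by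
  obtain ⟨P, hP⟩ := hf
  obtain ⟨Q, hQ⟩ := hg
  exact ⟨P - Q, fun v => by simp [hP, hQ]⟩

theorem IsPoly.mul {α : Type} {f g : (α → ℕ) → ℤ} (hf : IsPoly f) (hg : IsPoly g) :
    IsPoly (fun v => f v * g v) := by
  obtain ⟨P, hP⟩ := hf
  obtain ⟨Q, hQ⟩ := hg
  exact ⟨P * Q, fun v => by simp [hP, hQ]⟩

theorem IsPoly.sum {α ι : Type} (s : Finset ι) {f : ι → (α → ℕ) → ℤ}
    (hf : ∀ i ∈ s, IsPoly (f i)) : IsPoly (fun v => ∑ i ∈ s, f i v) := by
  classical
  induction s using Finset.induction_on with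
  | empty => simpa using IsPoly.const 0
  | insert a s ha ih =>
    have h := (hf a (Finset.mem_insert_self a s)).add
      (ih fun i hi => hf i (Finset.mem_insert_of_mem hi))
    simpa [Finset.sum_insert ha] using h

theorem IsPoly.subst {α γ : Type} {f : (γ → ℕ) → ℤ} (hf : IsPoly f) (h : γ → (α → ℕ) → ℕ)
    (hh : ∀ c, IsPoly (fun v => (h c v : ℤ))) : IsPoly (fun v => f (fun c => h c v)) := by
  obtain ⟨P, hP⟩ := hf
  have key : ∀ Q : MvPolynomial γ ℤ,
      IsPoly (fun v => MvPolynomial.eval (fun c => (h c v : ℤ)) Q) := by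
    intro Q
    induction Q using MvPolynomial.induction_on with
    | C a => simpa using IsPoly.const a
    | add p q hp hq => simpa using hp.add hq
    | mul_X p n hp => simpa using hp.mul (hh n)
  simpa [hP] using key P

theorem IsPoly.reindex {α γ : Type} {f : (α → ℕ) → ℤ} (hf : IsPoly f) (e : α → γ) :
    IsPoly (fun v : γ → ℕ => f (fun i => v (e i))) :=
  hf.subst (fun i v => v (e i)) fun i => IsPoly.var (e i)

/-- `S` has a single-fold Diophantine representation (with any finite type of unknowns). -/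
def SF {α : Type} (S : (α → ℕ) → Prop) : Prop :=
  ∃ (β : Type) (_ : Fintype β) (f : (α ⊕ β → ℕ) → ℤ), IsPoly f ∧
    (∀ v, S v ↔ ∃ t : β → ℕ, f (Sum.elim v t) = 0) ∧
    (∀ v (t t' : β → ℕ), f (Sum.elim v t) = 0 → f (Sum.elim v t') = 0 → t = t')

theorem SF.congr {α : Type} {S T : (α → ℕ) → Prop} (hS : SF S) (h : ∀ v, T v ↔ S v) : SF T := by
  have : T = S := funext fun v => propext (h v)
  rw [this]
  exact hS

theorem SF.all {α γ : Type} [Fintype γ] {S : γ → (α → ℕ) → Prop} (hS : ∀ c, SF (S c)) :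
    SF (fun v => ∀ c, S c v) := by
  classical
  choose β hβ f hf h1 h2 using hS
  have hval : ∀ (v : α → ℕ) (t : (Σ c, β c) → ℕ),
      (∑ c, (f c (fun i => Sum.elim v t (Sum.map id (fun b => (⟨c, b⟩ : Σ c, β c)) i))) *
        (f c (fun i => Sum.elim v t (Sum.map id (fun b => (⟨c, b⟩ : Σ c, β c)) i))) = 0) ↔
      ∀ c, f c (Sum.elim v (fun b => t ⟨c, b⟩)) = 0 := by
    intro v t
    rw [Finset.sum_eq_zero_iff_of_nonneg (fun c _ => mul_self_nonneg _)]
    constructor
    · intro h c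
      have := mul_self_eq_zero.1 (h c (Finset.mem_univ c))
      rw [← this]
      congr 1
      funext i
      rcases i with i | i <;> rfl
    · intro h c _
      rw [mul_self_eq_zero, ← h c]
      congr 1
      funext i
      rcases i with i | i <;> rfl
  refine ⟨Σ c, β c, inferInstance,
    fun w => ∑ c, (f c (fun i => w (Sum.map id (fun b => (⟨c, b⟩ : Σ c, β c)) i))) *
      (f c (fun i => w (Sum.map id (fun b => (⟨c, b⟩ : Σ c, β c)) i))), ?_, ?_, ?_⟩
  · exact IsPoly.sum _ fun c _ => ((hf c).reindex _).mul ((hf c).reindex _)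
  · intro v
    constructor
    · intro h
      choose t ht using fun c => (h1 c v).1 (h c)
      exact ⟨fun p => t p.1 p.2, (hval v _).2 ht⟩
    · rintro ⟨t, ht⟩ c
      exact (h1 c v).2 ⟨_, (hval v t).1 ht c⟩
  · intro v t t' ht ht'
    have e1 := (hval v t).1 ht
    have e2 := (hval v t').1 ht'
    funext p
    rcases p with ⟨c, b⟩
    exact congrFun (h2 c v _ _ (e1 c) (e2 c)) b

theorem SF.and {α : Type} {S T : (α → ℕ) → Prop} (hS : SF S) (hT : SF T) :
    SF (fun v => S v ∧ T v) := by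
  have h : SF (fun v : α → ℕ => ∀ b : Bool, (cond b S T) v) :=
    SF.all (γ := Bool) (S := fun b => cond b S T) fun b => by cases b <;> assumption
  exact h.congr fun v => by simp [Bool.forall_bool, and_comm]

theorem SF.ex {α δ : Type} [Fintype δ] {S : (α ⊕ δ → ℕ) → Prop} (hS : SF S)
    (hu : ∀ v d d', S (Sum.elim v d) → S (Sum.elim v d') → d = d') :
    SF (fun v => ∃ d : δ → ℕ, S (Sum.elim v d)) := by
  obtain ⟨β, _, f, hf, h1, h2⟩ := hS
  let e : (α ⊕ δ) ⊕ β → α ⊕ (δ ⊕ β) :=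
    Sum.elim (Sum.elim Sum.inl (Sum.inr ∘ Sum.inl)) (Sum.inr ∘ Sum.inr)
  have hval : ∀ (v : α → ℕ) (t : δ ⊕ β → ℕ), (fun i => Sum.elim v t (e i)) =
      Sum.elim (Sum.elim v (fun d => t (Sum.inl d))) (fun b => t (Sum.inr b)) := by
    intro v t
    funext i
    rcases i with (i | i) | i <;> rfl
  refine ⟨δ ⊕ β, inferInstance, fun w => f (fun i => w (e i)), hf.reindex e, ?_, ?_⟩
  · intro v
    constructor
    · rintro ⟨d, hd⟩
      obtain ⟨t, ht⟩ := (h1 _).1 hd
      refine ⟨Sum.elim d t, ?_⟩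
      show f (fun i => Sum.elim v (Sum.elim d t) (e i)) = 0
      rw [hval]
      exact ht
    · rintro ⟨t, ht⟩
      have ht2 : f (fun i => Sum.elim v t (e i)) = 0 := ht
      rw [hval] at ht2
      exact ⟨_, (h1 _).2 ⟨_, ht2⟩⟩
  · intro v t t' ht0 ht0'
    have ht : f (fun i => Sum.elim v t (e i)) = 0 := ht0
    have ht' : f (fun i => Sum.elim v t' (e i)) = 0 := ht0'
    rw [hval] at ht ht'
    have hd := hu v _ _ ((h1 _).2 ⟨_, ht⟩) ((h1 _).2 ⟨_, ht'⟩)
    rw [← hd] at ht'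
    have hb := h2 _ _ _ ht ht'
    funext p
    rcases p with p | p
    · exact congrFun hd p
    · exact congrFun hb p

theorem SF.or_disj {α : Type} {S T : (α → ℕ) → Prop} (hS : SF S) (hT : SF T)
    (hd : ∀ v, S v → T v → False) : SF (fun v => S v ∨ T v) := by
  obtain ⟨β, _, f, hf, h1, h2⟩ := hS
  obtain ⟨γ, _, g, hg, k1, k2⟩ := hT
  let e1 : α ⊕ β → α ⊕ (β ⊕ γ) := Sum.elim Sum.inl (Sum.inr ∘ Sum.inl)
  let e2 : α ⊕ γ → α ⊕ (β ⊕ γ) := Sum.elim Sum.inl (Sum.inr ∘ Sum.inr)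
  have hv1 : ∀ (v : α → ℕ) (t : β ⊕ γ → ℕ), (fun i => Sum.elim v t (e1 i)) =
      Sum.elim v (fun b => t (Sum.inl b)) := by
    intro v t
    funext i
    rcases i with i | i <;> rfl
  have hv2 : ∀ (v : α → ℕ) (t : β ⊕ γ → ℕ), (fun i => Sum.elim v t (e2 i)) =
      Sum.elim v (fun b => t (Sum.inr b)) := by
    intro v t
    funext i
    rcases i with i | i <;> rfl
  let F : (α ⊕ (β ⊕ γ) → ℕ) → ℤ := fun w =>
    (f (fun i => w (e1 i)) * f (fun i => w (e1 i)) +
      ∑ c : γ, (w (Sum.inr (Sum.inr c)) : ℤ) * (w (Sum.inr (Sum.inr c)) : ℤ)) *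
    (g (fun i => w (e2 i)) * g (fun i => w (e2 i)) +
      ∑ b : β, (w (Sum.inr (Sum.inl b)) : ℤ) * (w (Sum.inr (Sum.inl b)) : ℤ))
  have hF : IsPoly F :=
    (((hf.reindex e1).mul (hf.reindex e1)).add
      (IsPoly.sum _ fun c _ => (IsPoly.var _).mul (IsPoly.var _))).mul
    (((hg.reindex e2).mul (hg.reindex e2)).add
      (IsPoly.sum _ fun c _ => (IsPoly.var _).mul (IsPoly.var _)))
  have hval : ∀ (v : α → ℕ) (t : β ⊕ γ → ℕ), F (Sum.elim v t) = 0 ↔
      (f (Sum.elim v (fun b => t (Sum.inl b))) = 0 ∧ ∀ c, t (Sum.inr c) = 0) ∨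
      (g (Sum.elim v (fun c => t (Sum.inr c))) = 0 ∧ ∀ b, t (Sum.inl b) = 0) := by
    intro v t
    have n1 : ∀ (ι : Type) (_ : Fintype ι) (a : ι → ℕ) (x : ℤ),
        x * x + ∑ c, (a c : ℤ) * (a c : ℤ) = 0 ↔ (x = 0 ∧ ∀ c, a c = 0) := by
      intro ι _ a x
      have p1 : 0 ≤ ∑ c, (a c : ℤ) * (a c : ℤ) := Finset.sum_nonneg fun c _ => mul_self_nonneg _
      have p2 : 0 ≤ x * x := mul_self_nonneg _
      constructor
      · intro h
        have q1 : x * x = 0 := by linarith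
        have q2 : ∑ c, (a c : ℤ) * (a c : ℤ) = 0 := by linarith
        rw [Finset.sum_eq_zero_iff_of_nonneg (fun c _ => mul_self_nonneg _)] at q2
        refine ⟨mul_self_eq_zero.1 q1, fun c => ?_⟩
        have := mul_self_eq_zero.1 (q2 c (Finset.mem_univ c))
        exact_mod_cast this
      · rintro ⟨h, h'⟩
        simp [h, h']
    have : F (Sum.elim v t) =
      (f (fun i => Sum.elim v t (e1 i)) * f (fun i => Sum.elim v t (e1 i)) +
        ∑ c : γ, (t (Sum.inr c) : ℤ) * (t (Sum.inr c) : ℤ)) *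
      (g (fun i => Sum.elim v t (e2 i)) * g (fun i => Sum.elim v t (e2 i)) +
        ∑ b : β, (t (Sum.inl b) : ℤ) * (t (Sum.inl b) : ℤ)) := rfl
    rw [this, hv1, hv2, mul_eq_zero, n1 γ _ (fun c => t (Sum.inr c)),
      n1 β _ (fun c => t (Sum.inl c))]
  refine ⟨β ⊕ γ, inferInstance, F, hF, ?_, ?_⟩
  · intro v
    constructor
    · rintro (h | h)
      · obtain ⟨t, ht⟩ := (h1 v).1 h
        exact ⟨Sum.elim t (fun _ => 0), (hval _ _).2 (Or.inl ⟨ht, fun c => rfl⟩)⟩
      · obtain ⟨t, ht⟩ := (k1 v).1 h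
        exact ⟨Sum.elim (fun _ => 0) t, (hval _ _).2 (Or.inr ⟨ht, fun c => rfl⟩)⟩
    · rintro ⟨t, ht⟩
      rcases (hval _ _).1 ht with h | h
      · exact Or.inl ((h1 v).2 ⟨_, h.1⟩)
      · exact Or.inr ((k1 v).2 ⟨_, h.1⟩)
  · intro v t t' ht ht'
    rcases (hval _ _).1 ht with h | h <;> rcases (hval _ _).1 ht' with h' | h'
    · have e := h2 v _ _ h.1 h'.1
      funext p
      rcases p with p | p
      · exact congrFun e p
      · rw [h.2 p, h'.2 p]
    · exact (hd v ((h1 v).2 ⟨_, h.1⟩) ((k1 v).2 ⟨_, h'.1⟩)).elim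
    · exact (hd v ((h1 v).2 ⟨_, h'.1⟩) ((k1 v).2 ⟨_, h.1⟩)).elim
    · have e := k2 v _ _ h.1 h'.1
      funext p
      rcases p with p | p
      · rw [h.2 p, h'.2 p]
      · exact congrFun e p

theorem SF.eq0 {α : Type} {f : (α → ℕ) → ℤ} (hf : IsPoly f) : SF (fun v => f v = 0) := by
  refine ⟨Empty, inferInstance, fun w => f (fun i => w (Sum.inl i)), hf.reindex _, ?_, ?_⟩
  · intro v
    constructor
    · intro h
      exact ⟨fun x => x.elim, h⟩
    · rintro ⟨t, ht⟩
      exact ht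
  · intro v t t' _ _
    funext x
    exact x.elim

theorem SF.ge0 {α : Type} {f : (α → ℕ) → ℤ} (hf : IsPoly f) : SF (fun v => 0 ≤ f v) := by
  have h : SF (fun w : α ⊕ Unit → ℕ => f (fun i => w (Sum.inl i)) - (w (Sum.inr ()) : ℤ) = 0) :=
    SF.eq0 ((hf.reindex _).sub (IsPoly.var _))
  refine (h.ex ?_).congr ?_
  · intro v d d' h h'
    funext x
    have h1 : f v - (d () : ℤ) = 0 := h
    have h2 : f v - (d' () : ℤ) = 0 := h'
    have : (d () : ℤ) = d' () := by linarith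
    exact_mod_cast this
  · intro v
    constructor
    · intro h
      refine ⟨fun _ => (f v).toNat, ?_⟩
      show f v - ((f v).toNat : ℤ) = 0
      rw [Int.toNat_of_nonneg h]
      ring
    · rintro ⟨d, hd⟩
      have h1 : f v - (d () : ℤ) = 0 := hd
      have : (0 : ℤ) ≤ d () := Int.natCast_nonneg _
      linarith

theorem SF.reindex {α γ : Type} {S : (α → ℕ) → Prop} (hS : SF S) (e : α → γ) :
    SF (fun v : γ → ℕ => S (fun i => v (e i))) := by
  obtain ⟨β, _, f, hf, h1, h2⟩ := hS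
  have hval : ∀ (v : γ → ℕ) (t : β → ℕ), (fun i => Sum.elim v t (Sum.map e id i)) =
      Sum.elim (fun i => v (e i)) t := by
    intro v t
    funext i
    rcases i with i | i <;> rfl
  refine ⟨β, inferInstance, fun w => f (fun i => w (Sum.map e id i)), hf.reindex _, ?_, ?_⟩
  · intro v
    show S (fun i => v (e i)) ↔ ∃ t, f (fun i => Sum.elim v t (Sum.map e id i)) = 0
    rw [h1]
    constructor
    · rintro ⟨t, ht⟩
      exact ⟨t, by rw [hval]; exact ht⟩
    · rintro ⟨t, ht⟩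
      rw [hval] at ht
      exact ⟨t, ht⟩
  · intro v t t' h0 h0'
    have h : f (fun i => Sum.elim v t (Sum.map e id i)) = 0 := h0
    have h' : f (fun i => Sum.elim v t' (Sum.map e id i)) = 0 := h0'
    rw [hval] at h h'
    exact h2 _ _ _ h h'

/-- The function `F` has a single-fold graph. -/
def SFun {α : Type} (F : (α → ℕ) → ℕ) : Prop :=
  SF (fun w : α ⊕ Unit → ℕ => w (Sum.inr ()) = F (fun i => w (Sum.inl i)))

theorem SFun.proj {α : Type} (i : α) : SFun (fun v : α → ℕ => v i) :=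
  (SF.eq0 ((IsPoly.var (Sum.inr ())).sub (IsPoly.var (Sum.inl i)))).congr fun v => by
    rw [sub_eq_zero, Nat.cast_inj]

theorem SFun.reindex {α γ : Type} {F : (α → ℕ) → ℕ} (hF : SFun F) (e : α → γ) :
    SFun (fun v : γ → ℕ => F (fun i => v (e i))) :=
  (SF.reindex hF (Sum.map e id)).congr fun _ => Iff.rfl

theorem SF.comp {α γ : Type} [Fintype γ] {S : (γ → ℕ) → Prop} (hS : SF S)
    {F : γ → (α → ℕ) → ℕ} (hF : ∀ c, SFun (F c)) : SF (fun v => S (fun c => F c v)) := by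
  have h1 : SF (fun w : α ⊕ γ → ℕ => ∀ c, w (Sum.inr c) = F c (fun i => w (Sum.inl i))) :=
    SF.all fun c => (SF.reindex (hF c) (Sum.map id (fun _ => c))).congr fun _ => Iff.rfl
  have h2 : SF (fun w : α ⊕ γ → ℕ => S (fun c => w (Sum.inr c))) := hS.reindex Sum.inr
  refine ((h1.and h2).ex ?_).congr ?_
  · rintro v d d' ⟨h, _⟩ ⟨h', _⟩
    funext c
    exact (h c).trans (h' c).symm
  · intro v
    constructor
    · intro h
      exact ⟨fun c => F c v, fun c => rfl, h⟩
    · rintro ⟨d, h, h'⟩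
      have : d = fun c => F c v := funext fun c => h c
      rw [← this]
      exact h'

theorem SFun.comp {α γ : Type} [Fintype γ] {G : (γ → ℕ) → ℕ} (hG : SFun G)
    {F : γ → (α → ℕ) → ℕ} (hF : ∀ c, SFun (F c)) : SFun (fun v => G (fun c => F c v)) := by
  have := SF.comp (α := α ⊕ Unit) hG
    (F := Sum.elim (fun c w => F c (fun i => w (Sum.inl i))) (fun _ w => w (Sum.inr ())))
    (by
      rintro (c | c)
      · exact (hF c).reindex Sum.inl
      · exact SFun.proj (Sum.inr ()))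
  exact this.congr fun _ => Iff.rfl

/-- Both `S` and its complement have single-fold representations. -/
def Dec {α : Type} (S : (α → ℕ) → Prop) : Prop := SF S ∧ SF (fun v => ¬ S v)

theorem Dec.congr {α : Type} {S T : (α → ℕ) → Prop} (hS : Dec S) (h : ∀ v, T v ↔ S v) :
    Dec T := ⟨hS.1.congr h, hS.2.congr fun v => not_congr (h v)⟩

theorem Dec.not {α : Type} {S : (α → ℕ) → Prop} (hS : Dec S) : Dec (fun v => ¬ S v) :=
  ⟨hS.2, hS.1.congr fun _ => not_not⟩

theorem Dec.and {α : Type} {S T : (α → ℕ) → Prop} (hS : Dec S) (hT : Dec T) :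
    Dec (fun v => S v ∧ T v) := by
  refine ⟨hS.1.and hT.1, (hS.2.or_disj (hS.1.and hT.2) fun v h h' => h h'.1).congr fun v => ?_⟩
  tauto

theorem Dec.or {α : Type} {S T : (α → ℕ) → Prop} (hS : Dec S) (hT : Dec T) :
    Dec (fun v => S v ∨ T v) :=
  ((hS.not.and hT.not).not).congr fun v => by tauto

theorem Dec.imp {α : Type} {S T : (α → ℕ) → Prop} (hS : Dec S) (hT : Dec T) :
    Dec (fun v => S v → T v) :=
  (hS.not.or hT).congr fun v => by tauto

theorem Dec.comp {α γ : Type} [Fintype γ] {S : (γ → ℕ) → Prop} (hS : Dec S)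
    {F : γ → (α → ℕ) → ℕ} (hF : ∀ c, SFun (F c)) : Dec (fun v => S (fun c => F c v)) :=
  ⟨hS.1.comp hF, hS.2.comp hF⟩

theorem Dec.ge0 {α : Type} {f : (α → ℕ) → ℤ} (hf : IsPoly f) : Dec (fun v => 0 ≤ f v) :=
  ⟨SF.ge0 hf, (SF.ge0 (hf.neg.sub (IsPoly.const 1))).congr fun v => by
    constructor <;> intro h <;> omega⟩

theorem Dec.eq0 {α : Type} {f : (α → ℕ) → ℤ} (hf : IsPoly f) : Dec (fun v => f v = 0) :=
  ((Dec.ge0 hf).and (Dec.ge0 hf.neg)).congr fun v => by
    constructor <;> intro h <;> omega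

theorem Dec.all {α : Type} {S : ℕ → (α → ℕ) → Prop} (N : ℕ) (h : ∀ j < N, Dec (S j)) :
    Dec (fun v => ∀ j < N, S j v) := by
  induction N with
  | zero =>
    exact (Dec.eq0 (IsPoly.const 0)).congr fun v => by simp
  | succ N ih =>
    refine ((ih fun j hj => h j (by omega)).and (h N (by omega))).congr fun v => ?_
    constructor
    · intro h
      exact ⟨fun j hj => h j (by omega), h N (by omega)⟩
    · rintro ⟨h1, h2⟩ j hj
      rcases Nat.lt_succ_iff_lt_or_eq.1 hj with h | h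
      · exact h1 j h
      · rw [h]; exact h2

theorem Dec.lt {α : Type} {F G : (α → ℕ) → ℕ} (hF : SFun F) (hG : SFun G) :
    Dec (fun v => F v < G v) := by
  have h : Dec (fun w : Bool → ℕ => 0 ≤ (w true : ℤ) - (w false : ℤ) - 1) :=
    Dec.ge0 (((IsPoly.var true).sub (IsPoly.var false)).sub (IsPoly.const 1))
  have h' := h.comp (F := fun b => cond b G F) (by intro b; cases b <;> assumption)
  refine h'.congr fun v => ?_
  show F v < G v ↔ 0 ≤ (G v : ℤ) - (F v : ℤ) - 1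
  omega

theorem Dec.eqf {α : Type} {F G : (α → ℕ) → ℕ} (hF : SFun F) (hG : SFun G) :
    Dec (fun v => F v = G v) :=
  ((Dec.lt hF hG).or (Dec.lt hG hF)).not.congr fun v => by omega

theorem SFun.ite {α : Type} {S : (α → ℕ) → Prop} {F G : (α → ℕ) → ℕ} (hS : Dec S)
    (hF : SFun F) (hG : SFun G) (E : (α → ℕ) → ℕ) (h1 : ∀ v, S v → E v = F v)
    (h2 : ∀ v, ¬ S v → E v = G v) : SFun E := by
  have a1 : SF (fun w : α ⊕ Unit → ℕ => S (fun i => w (Sum.inl i)) ∧
      w (Sum.inr ()) = F (fun i => w (Sum.inl i))) := (hS.1.reindex Sum.inl).and hF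
  have a2 : SF (fun w : α ⊕ Unit → ℕ => ¬ S (fun i => w (Sum.inl i)) ∧
      w (Sum.inr ()) = G (fun i => w (Sum.inl i))) := (hS.2.reindex Sum.inl).and hG
  refine (a1.or_disj a2 fun v h h' => h'.1 h.1).congr fun w => ?_
  by_cases hs : S (fun i => w (Sum.inl i))
  · rw [h1 _ hs]
    tauto
  · rw [h2 _ hs]
    tauto

theorem SFun.const {α : Type} (c : ℕ) : SFun (fun _ : α → ℕ => c) :=
  (SF.eq0 ((IsPoly.var (Sum.inr ())).sub (IsPoly.const (c : ℤ)))).congr fun v => by
    rw [sub_eq_zero, Nat.cast_inj]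

theorem SFun.succ {α : Type} {F : (α → ℕ) → ℕ} (hF : SFun F) : SFun (fun v => F v + 1) := by
  have h : SFun (fun w : Unit → ℕ => w () + 1) :=
    (SF.eq0 (((IsPoly.var (Sum.inr ())).sub (IsPoly.var (Sum.inl ()))).sub
      (IsPoly.const 1))).congr fun v => by
        show v (Sum.inr ()) = v (Sum.inl ()) + 1 ↔ _
        omega
  exact h.comp (F := fun _ => F) fun _ => hF

theorem SFun.pred {α : Type} {F : (α → ℕ) → ℕ} (hF : SFun F) : SFun (fun v => F v - 1) := by
  have h : SFun (fun w : Unit → ℕ => w () - 1) := by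
    have a1 : SF (fun w : Unit ⊕ Unit → ℕ => (w (Sum.inr ()) : ℤ) - (w (Sum.inl ()) : ℤ) + 1
      = 0) := SF.eq0 (((IsPoly.var (Sum.inr ())).sub (IsPoly.var (Sum.inl ()))).add
      (IsPoly.const 1))
    have a2 : SF (fun w : Unit ⊕ Unit → ℕ => (w (Sum.inr ()) : ℤ) + (w (Sum.inl ()) : ℤ)
      = 0) := SF.eq0 ((IsPoly.var (Sum.inr ())).add (IsPoly.var (Sum.inl ())))
    refine (a1.or_disj a2 ?_).congr ?_
    · intro v h h'
      omega
    · intro v
      show v (Sum.inr ()) = v (Sum.inl ()) - 1 ↔ _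
      omega
  exact h.comp (F := fun _ => F) fun _ => hF

/-- Unique search. -/
theorem SFun.search {α : Type} {R : (α ⊕ Unit → ℕ) → Prop} {N : (α → ℕ) → Prop} (hR : SF R)
    (hN : SF N)
    (hu : ∀ v x x', R (Sum.elim v (fun _ => x)) → R (Sum.elim v (fun _ => x')) → x = x')
    (hc : ∀ v, N v ↔ ∀ x, ¬ R (Sum.elim v (fun _ => x)))
    (F : (α → ℕ) → ℕ) (h1 : ∀ v x, R (Sum.elim v (fun _ => x)) → F v = x + 1)
    (h2 : ∀ v, N v → F v = 0) : SFun F := by
  have a1 : SF (fun w : (α ⊕ Unit) ⊕ Unit → ℕ =>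
      R (Sum.elim (fun i => w (Sum.inl (Sum.inl i))) (fun _ => w (Sum.inr ()))) ∧
      (w (Sum.inl (Sum.inr ())) : ℤ) - (w (Sum.inr ()) : ℤ) - 1 = 0) := by
    refine SF.and ?_ (SF.eq0 (((IsPoly.var _).sub (IsPoly.var _)).sub (IsPoly.const 1)))
    refine (hR.reindex (Sum.elim (Sum.inl ∘ Sum.inl) Sum.inr)).congr fun w => ?_
    have : (fun i : α ⊕ Unit => w (Sum.elim (Sum.inl ∘ Sum.inl) Sum.inr i)) =
        Sum.elim (fun i => w (Sum.inl (Sum.inl i))) (fun _ => w (Sum.inr ())) := by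
      funext i
      rcases i with i | i <;> rfl
    rw [this]
  have a2 := a1.ex (by
    rintro v d d' ⟨h, _⟩ ⟨h', _⟩
    funext x
    exact hu _ _ _ h h')
  have a3 : SF (fun w : α ⊕ Unit → ℕ => N (fun i => w (Sum.inl i)) ∧
      (w (Sum.inr ()) : ℤ) = 0) := (hN.reindex Sum.inl).and (SF.eq0 (IsPoly.var _))
  refine (a2.or_disj a3 ?_).congr ?_
  · rintro w ⟨d, h, _⟩ ⟨h', _⟩
    exact (hc _).1 h' _ h
  · intro w
    constructor
    · intro h
      by_cases hn : N (fun i => w (Sum.inl i))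
      · right
        refine ⟨hn, ?_⟩
        rw [h2 _ hn] at h
        exact_mod_cast h
      · left
        have : ∃ x, R (Sum.elim (fun i => w (Sum.inl i)) (fun _ => x)) := by
          by_contra hx
          push Not at hx
          exact hn ((hc _).2 hx)
        obtain ⟨x, hx⟩ := this
        refine ⟨fun _ => x, hx, ?_⟩
        rw [h1 _ _ hx] at h
        show (w (Sum.inr ()) : ℤ) - (x : ℤ) - 1 = 0
        rw [h]
        push_cast
        ring
    · rintro (⟨d, h, h'⟩ | ⟨h, h'⟩)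
      · have e := h1 _ _ h
        have h'' : (w (Sum.inr ()) : ℤ) - (d () : ℤ) - 1 = 0 := h'
        show w (Sum.inr ()) = F (fun i => w (Sum.inl i))
        have e' : F (fun i => w (Sum.inl i)) = d () + 1 := e
        rw [e']
        omega
      · show w (Sum.inr ()) = F (fun i => w (Sum.inl i))
        rw [h2 _ h]
        exact_mod_cast h'

end P345
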