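import Mathlib

/-! Definitions for P345 (single-fold Diophantine representations). -/

namespace P345

/-- `a` and `w` solve `P = 0`. -/
def Sol {n m : ℕ} (P : MvPolynomial (Fin n ⊕ Fin m) ℤ) (a : Fin n → ℕ) (w : Fin m → ℕ) : Prop :=
  MvPolynomial.eval (Sum.elim (fun i => (a i : ℤ)) (fun j => (w j : ℤ))) P = 0

/-- `S ⊆ ℕ^n` has a single-fold Diophantine representation. -/
def SingleFold {n : ℕ} (S : Set (Fin n → ℕ)) : Prop :=
  ∃ (m : ℕ) (P : MvPolynomial (Fin n ⊕ Fin m) ℤ),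
    (∀ a, a ∈ S ↔ ∃ w : Fin m → ℕ, Sol P a w) ∧
    ∀ a (w w' : Fin m → ℕ), Sol P a w → Sol P a w' → w = w'

/-- `S ⊆ ℕ^n` has a finite-fold Diophantine representation. -/
def FiniteFold {n : ℕ} (S : Set (Fin n → ℕ)) : Prop :=
  ∃ (m : ℕ) (P : MvPolynomial (Fin n ⊕ Fin m) ℤ),
    (∀ a, a ∈ S ↔ ∃ w : Fin m → ℕ, Sol P a w) ∧ ∀ a, {w : Fin m → ℕ | Sol P a w}.Finite

/-- The graph of `F : ℕ^n → ℕ`, as a subset of `ℕ^(n+1)` (the value is the last coordinate). -/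
def graph {n : ℕ} (F : (Fin n → ℕ) → ℕ) : Set (Fin (n + 1) → ℕ) :=
  {b | b (Fin.last n) = F (fun i => b i.castSucc)}

/-- The value `P(a, x)` of a polynomial in `n + 1` variables. -/
noncomputable def val {n : ℕ} (P : MvPolynomial (Fin n ⊕ Fin 1) ℤ) (a : Fin n → ℕ) (x : ℕ) : ℤ :=
  MvPolynomial.eval (Sum.elim (fun i => (a i : ℤ)) (fun _ => (x : ℤ))) P

end P345
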