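import Vale.Agent.P345.Final

/-! Finite-fold representations when the unknowns are bounded. -/

namespace P345

open MvPolynomial

/-- Finite-fold, internal form. -/
def FFi {α : Type} (S : (α → ℕ) → Prop) : Prop :=
  ∃ (β : Type) (_ : Fintype β) (f : (α ⊕ β → ℕ) → ℤ), IsPoly f ∧
    (∀ v, S v ↔ ∃ t : β → ℕ, f (Sum.elim v t) = 0) ∧
    (∀ v, {t : β → ℕ | f (Sum.elim v t) = 0}.Finite)

theorem finiteFold_iff {n : ℕ} (S : Set (Fin n → ℕ)) : FiniteFold S ↔ FFi (fun v => v ∈ S) := by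
  constructor
  · rintro ⟨m, P, h1, h2⟩
    have key : ∀ (v : Fin n → ℕ) (t : Fin m → ℕ),
        MvPolynomial.eval (fun i => ((Sum.elim v t i : ℕ) : ℤ)) P = 0 ↔ Sol P v t := by
      intro v t
      have : (fun i => ((Sum.elim v t i : ℕ) : ℤ)) =
          Sum.elim (fun i => (v i : ℤ)) (fun j => (t j : ℤ)) := by
        funext i
        rcases i with i | i <;> rfl
      rw [this]
      exact Iff.rfl
    refine ⟨Fin m, inferInstance, fun w => MvPolynomial.eval (fun i => (w i : ℤ)) P,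
      ⟨P, fun _ => rfl⟩, ?_, ?_⟩
    · intro v
      exact (h1 v).trans (exists_congr fun t => (key v t).symm)
    · intro v
      refine (h2 v).subset fun t ht => (key v t).1 ht
  · rintro ⟨β, _, f, ⟨P, hP⟩, h1, h2⟩
    classical
    let e : β ≃ Fin (Fintype.card β) := Fintype.equivFin β
    have key : ∀ (v : Fin n → ℕ) (w : Fin (Fintype.card β) → ℕ),
        Sol (rename (Sum.map id e) P) v w ↔ f (Sum.elim v (fun b => w (e b))) = 0 := by
      intro v w
      rw [Sol, eval_rename, hP]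
      have : (Sum.elim (fun i => (v i : ℤ)) (fun j => (w j : ℤ)) ∘ (Sum.map id e)) =
          fun i => ((Sum.elim v (fun b => w (e b)) i : ℕ) : ℤ) := by
        funext i
        rcases i with i | i <;> rfl
      rw [this]
    refine ⟨Fintype.card β, rename (Sum.map id e) P, ?_, ?_⟩
    · intro a
      refine (h1 a).trans ?_
      constructor
      · rintro ⟨t, ht⟩
        refine ⟨fun j => t (e.symm j), (key _ _).2 ?_⟩
        simpa using ht
      · rintro ⟨w, hw⟩
        exact ⟨_, (key _ _).1 hw⟩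
    · intro a
      refine Set.Finite.of_injOn (f := fun (w : Fin (Fintype.card β) → ℕ) (b : β) => w (e b))
        (t := {t : β → ℕ | f (Sum.elim a t) = 0}) ?_ ?_ (h2 a)
      · intro w hw
        exact (key _ _).1 hw
      · intro w _ w' _ h
        funext j
        have := congrFun h (e.symm j)
        simpa using this

/-- Unknowns bounded by a function with a finite-fold graph. -/
theorem bounded_ff {α β : Type} [Fintype β] {S : (α → ℕ) → Prop} {f : (α ⊕ β → ℕ) → ℤ}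
    (hf : IsPoly f) {h : (α → ℕ) → ℕ}
    (hh : FFi (fun w : α ⊕ Unit → ℕ => w (Sum.inr ()) = h (fun i => w (Sum.inl i))))
    (hS : ∀ v, S v ↔ ∃ t : β → ℕ, (∀ b, t b ≤ h v) ∧ f (Sum.elim v t) = 0) : FFi S := by
  obtain ⟨γ, _, g, hg, g1, g2⟩ := hh
  -- unknowns: `t : β`, slack `s : β`, the value `z` of `h` and the unknowns of its graph
  let e1 : α ⊕ β → α ⊕ ((β ⊕ β) ⊕ (Unit ⊕ γ)) :=
    Sum.elim Sum.inl (fun b => Sum.inr (Sum.inl (Sum.inl b)))
  let e2 : (α ⊕ Unit) ⊕ γ → α ⊕ ((β ⊕ β) ⊕ (Unit ⊕ γ)) :=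
    Sum.elim (Sum.elim Sum.inl (fun u => Sum.inr (Sum.inr (Sum.inl u))))
      (fun c => Sum.inr (Sum.inr (Sum.inr c)))
  let F : (α ⊕ ((β ⊕ β) ⊕ (Unit ⊕ γ)) → ℕ) → ℤ := fun w =>
    (f (fun i => w (e1 i)) * f (fun i => w (e1 i)) +
      g (fun i => w (e2 i)) * g (fun i => w (e2 i))) +
    ∑ b : β, ((w (Sum.inr (Sum.inl (Sum.inl b))) : ℤ) + (w (Sum.inr (Sum.inl (Sum.inr b))) : ℤ) -
        (w (Sum.inr (Sum.inr (Sum.inl ()))) : ℤ)) *
      ((w (Sum.inr (Sum.inl (Sum.inl b))) : ℤ) + (w (Sum.inr (Sum.inl (Sum.inr b))) : ℤ) -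
        (w (Sum.inr (Sum.inr (Sum.inl ()))) : ℤ))
  have hF : IsPoly F := by
    refine (((hf.reindex e1).mul (hf.reindex e1)).add ((hg.reindex e2).mul (hg.reindex e2))).add
      (IsPoly.sum _ fun b _ => ?_)
    have : IsPoly (fun w : α ⊕ ((β ⊕ β) ⊕ (Unit ⊕ γ)) → ℕ =>
        ((w (Sum.inr (Sum.inl (Sum.inl b))) : ℤ) + (w (Sum.inr (Sum.inl (Sum.inr b))) : ℤ) -
        (w (Sum.inr (Sum.inr (Sum.inl ()))) : ℤ))) :=
      ((IsPoly.var _).add (IsPoly.var _)).sub (IsPoly.var _)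
    exact this.mul this
  have hv1 : ∀ (v : α → ℕ) (t : (β ⊕ β) ⊕ (Unit ⊕ γ) → ℕ), (fun i => Sum.elim v t (e1 i)) =
      Sum.elim v (fun b => t (Sum.inl (Sum.inl b))) := by
    intro v t
    funext i
    rcases i with i | i <;> rfl
  have hv2 : ∀ (v : α → ℕ) (t : (β ⊕ β) ⊕ (Unit ⊕ γ) → ℕ), (fun i => Sum.elim v t (e2 i)) =
      Sum.elim (Sum.elim v (fun _ => t (Sum.inr (Sum.inl ()))))
        (fun c => t (Sum.inr (Sum.inr c))) := by
    intro v t
    funext i
    rcases i with (i | i) | i <;> rfl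
  have hval : ∀ (v : α → ℕ) (t : (β ⊕ β) ⊕ (Unit ⊕ γ) → ℕ), F (Sum.elim v t) = 0 ↔
      (f (Sum.elim v (fun b => t (Sum.inl (Sum.inl b)))) = 0 ∧
      g (Sum.elim (Sum.elim v (fun _ => t (Sum.inr (Sum.inl ()))))
        (fun c => t (Sum.inr (Sum.inr c)))) = 0) ∧
      ∀ b, t (Sum.inl (Sum.inl b)) + t (Sum.inl (Sum.inr b)) = t (Sum.inr (Sum.inl ())) := by
    intro v t
    have : F (Sum.elim v t) = (f (fun i => Sum.elim v t (e1 i)) * f (fun i => Sum.elim v t (e1 i)) +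
      g (fun i => Sum.elim v t (e2 i)) * g (fun i => Sum.elim v t (e2 i))) +
      ∑ b : β, ((t (Sum.inl (Sum.inl b)) : ℤ) + (t (Sum.inl (Sum.inr b)) : ℤ) -
          (t (Sum.inr (Sum.inl ())) : ℤ)) *
        ((t (Sum.inl (Sum.inl b)) : ℤ) + (t (Sum.inl (Sum.inr b)) : ℤ) -
          (t (Sum.inr (Sum.inl ())) : ℤ)) := rfl
    rw [this, hv1, hv2]
    set A := f (Sum.elim v (fun b => t (Sum.inl (Sum.inl b))))
    set C := g (Sum.elim (Sum.elim v (fun _ => t (Sum.inr (Sum.inl ()))))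
        (fun c => t (Sum.inr (Sum.inr c))))
    have p0 : 0 ≤ A * A := mul_self_nonneg _
    have p1 : 0 ≤ C * C := mul_self_nonneg _
    have p2 : 0 ≤ ∑ b : β, ((t (Sum.inl (Sum.inl b)) : ℤ) + (t (Sum.inl (Sum.inr b)) : ℤ) -
          (t (Sum.inr (Sum.inl ())) : ℤ)) *
        ((t (Sum.inl (Sum.inl b)) : ℤ) + (t (Sum.inl (Sum.inr b)) : ℤ) -
          (t (Sum.inr (Sum.inl ())) : ℤ)) := Finset.sum_nonneg fun c _ => mul_self_nonneg _
    constructor
    · intro h0
      have q0 : A * A = 0 := by linarith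
      have q1 : C * C = 0 := by linarith
      have q2 : ∑ b : β, ((t (Sum.inl (Sum.inl b)) : ℤ) + (t (Sum.inl (Sum.inr b)) : ℤ) -
          (t (Sum.inr (Sum.inl ())) : ℤ)) *
        ((t (Sum.inl (Sum.inl b)) : ℤ) + (t (Sum.inl (Sum.inr b)) : ℤ) -
          (t (Sum.inr (Sum.inl ())) : ℤ)) = 0 := by linarith
      rw [Finset.sum_eq_zero_iff_of_nonneg (fun c _ => mul_self_nonneg _)] at q2
      refine ⟨⟨mul_self_eq_zero.1 q0, mul_self_eq_zero.1 q1⟩, fun b => ?_⟩
      have := mul_self_eq_zero.1 (q2 b (Finset.mem_univ b))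
      omega
    · rintro ⟨⟨h0, h1⟩, h2⟩
      rw [h0, h1, Finset.sum_eq_zero]
      · ring
      · intro b _
        have : (t (Sum.inl (Sum.inl b)) : ℤ) + (t (Sum.inl (Sum.inr b)) : ℤ) -
          (t (Sum.inr (Sum.inl ())) : ℤ) = 0 := by
          have := h2 b
          omega
        rw [this]
        ring
  refine ⟨(β ⊕ β) ⊕ (Unit ⊕ γ), inferInstance, F, hF, ?_, ?_⟩
  · intro v
    rw [hS]
    constructor
    · rintro ⟨t, ht, ht0⟩
      obtain ⟨c, hc⟩ := (g1 (Sum.elim v (fun _ => h v))).1 rfl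
      refine ⟨Sum.elim (Sum.elim t (fun b => h v - t b)) (Sum.elim (fun _ => h v) c),
        (hval _ _).2 ⟨⟨ht0, hc⟩, fun b => ?_⟩⟩
      show t b + (h v - t b) = h v
      have := ht b
      omega
    · rintro ⟨t, ht⟩
      obtain ⟨⟨h0, h1⟩, h2⟩ := (hval _ _).1 ht
      have h3 : t (Sum.inr (Sum.inl ())) = h v := (g1 _).2 ⟨_, h1⟩
      refine ⟨_, fun b => ?_, h0⟩
      have := h2 b
      omega
  · intro v
    refine Set.Finite.subset (s := Set.image (fun p : ((β ⊕ β) → ℕ) × (γ → ℕ) =>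
      (Sum.elim p.1 (Sum.elim (fun _ => h v) p.2) : (β ⊕ β) ⊕ (Unit ⊕ γ) → ℕ))
      (Set.prod {s | ∀ b, s b ≤ h v} {c | g (Sum.elim (Sum.elim v (fun _ => h v)) c) = 0}))
      (Set.Finite.image _ (Set.Finite.prod ?_ (g2 _))) ?_
    · exact Set.Finite.pi' (fun _ : β ⊕ β => Set.finite_Iic (h v))
    · intro t ht
      obtain ⟨⟨_, h1⟩, h2⟩ := (hval _ _).1 ht
      have h3 : t (Sum.inr (Sum.inl ())) = h v := (g1 _).2 ⟨_, h1⟩
      refine ⟨(fun b => t (Sum.inl b), fun c => t (Sum.inr (Sum.inr c))), ⟨?_, ?_⟩, ?_⟩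
      · rintro (b | b)
        · show t (Sum.inl (Sum.inl b)) ≤ h v
          have := h2 b
          omega
        · show t (Sum.inl (Sum.inr b)) ≤ h v
          have := h2 b
          omega
      · show g _ = 0
        rw [← h3]
        exact h1
      · funext i
        rcases i with i | (i | i)
        · rfl
        · exact h3.symm
        · rfl

theorem FFi.of_SF {α : Type} {S : (α → ℕ) → Prop} (h : SF S) : FFi S := by
  obtain ⟨β, hβ, f, hf, h1, h2⟩ := h
  refine ⟨β, hβ, f, hf, h1, fun v => Set.Subsingleton.finite fun t ht t' ht' => h2 v t t' ht ht'⟩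

/-- Sets with a representation whose unknowns are bounded by a function with a finite-fold
graph. -/
theorem bounded_finiteFold {n m : ℕ} (P : MvPolynomial (Fin n ⊕ Fin m) ℤ) (h : (Fin n → ℕ) → ℕ)
    (hh : FiniteFold (graph h)) :
    FiniteFold {a | ∃ w : Fin m → ℕ, (∀ j, w j ≤ h a) ∧ Sol P a w} := by
  rw [finiteFold_iff] at hh ⊢
  have hh' : FFi (fun w : Fin n ⊕ Unit → ℕ => w (Sum.inr ()) = h (fun i => w (Sum.inl i))) := by
    obtain ⟨β, hβ, f, hf, h1, h2⟩ := hh
    let e : Fin (n + 1) → Fin n ⊕ Unit := fun i => Fin.lastCases (Sum.inr ()) (fun j => Sum.inl j) i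
    have hval : ∀ (v : Fin n ⊕ Unit → ℕ) (t : β → ℕ),
        (fun i => Sum.elim v t (Sum.map e id i)) = Sum.elim (fun i => v (e i)) t := by
      intro v t
      funext i
      rcases i with i | i <;> rfl
    refine ⟨β, hβ, fun w => f (fun i => w (Sum.map e id i)), hf.reindex _, fun v => ?_,
      fun v => ?_⟩
    · have := h1 (fun i => v (e i))
      have h3 : (fun i => v (e i)) ∈ graph h ↔
          v (Sum.inr ()) = h (fun i => v (Sum.inl i)) := by
        show v (e (Fin.last n)) = h (fun i => v (e i.castSucc)) ↔ _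
        simp [e]
      show v (Sum.inr ()) = h (fun i => v (Sum.inl i)) ↔
        ∃ t, f (fun i => Sum.elim v t (Sum.map e id i)) = 0
      simp only [hval]
      rw [← h3]
      exact this
    · show {t | f (fun i => Sum.elim v t (Sum.map e id i)) = 0}.Finite
      simp only [hval]
      exact h2 _
  refine bounded_ff (f := fun w : Fin n ⊕ Fin m → ℕ =>
    MvPolynomial.eval (fun i => (w i : ℤ)) P) ⟨P, fun _ => rfl⟩ hh' fun v => ?_
  refine exists_congr fun t => and_congr Iff.rfl ?_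
  show MvPolynomial.eval _ P = 0 ↔ MvPolynomial.eval _ P = 0
  have : (fun i => ((Sum.elim v t i : ℕ) : ℤ)) =
      Sum.elim (fun i => (v i : ℤ)) (fun j => (t j : ℤ)) := by
    funext i
    rcases i with i | i <;> rfl
  rw [this]

theorem finiteFold_of_singleFold {n : ℕ} {S : Set (Fin n → ℕ)} (h : SingleFold S) :
    FiniteFold S := by
  obtain ⟨m, P, h1, h2⟩ := h
  exact ⟨m, P, h1, fun a => Set.Subsingleton.finite fun w hw w' hw' => h2 a w w' hw hw'⟩

end P345
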