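import Vale.Agent.P345.Pattern

/-! Final form of the pattern theorem. -/

namespace P345

open MvPolynomial

theorem pattern_fin {n k : ℕ} (P : Fin k → MvPolynomial (Fin n ⊕ Fin 1) ℤ)
    (B : (Fin k → Prop) → Prop) :
    SingleFold {a | ∃ x, B (fun i => 0 ≤ val (P i) a x)} ∧
    SingleFold {a | ∀ x, B (fun i => 0 ≤ val (P i) a x)} ∧
    ∀ F : (Fin n → ℕ) → ℕ, (∀ a, IsLeast {x | B (fun i => 0 ≤ val (P i) a x)} (F a) ∨
      ((∀ x, ¬ B (fun i => 0 ≤ val (P i) a x)) ∧ F a = 0)) → SingleFold (graph F) := by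
  let e : Fin n ⊕ Fin 1 → Fin n ⊕ Unit := Sum.map id (fun _ => ())
  let G : Fin k → (Fin n ⊕ Unit → ℕ) → ℤ := fun i w =>
    MvPolynomial.eval (fun j => (w j : ℤ)) (rename e (P i))
  have hG : ∀ i, IsPoly (G i) := fun i => ⟨_, fun _ => rfl⟩
  have key : ∀ i (a : Fin n → ℕ) x, val (P i) a x = sq (G i) a x := by
    intro i a x
    show _ = MvPolynomial.eval _ (rename e (P i))
    rw [eval_rename, val]
    congr 2
    funext j
    rcases j with j | j <;> rfl
  simp only [key]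
  have h1 := pattern hG B
  have h2 := pattern hG (fun c => ¬ B c)
  refine ⟨(singleFold_iff _).2 h1.1.1, (singleFold_iff _).2 (h2.1.2.congr fun v => ?_),
    fun F hF => (graph_iff _).2 (h1.2 F hF)⟩
  show (∀ x, B _) ↔ ¬ ∃ x, ¬ B _
  push Not
  exact Iff.rfl

end P345
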