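import Vale.Agent.P345.FF

/-! Linear equations in two unknowns. -/

namespace P345

open MvPolynomial

/-- Unique Bezout certificate. -/
theorem bezout_unique {p q s t s' t' : ℕ} (hq : 0 < q) (h : s * p = t * q + 1)
    (h' : s' * p = t' * q + 1) (hs : s ≤ q) (hs1 : 1 ≤ s) (hs' : s' ≤ q) (hs1' : 1 ≤ s') :
    s = s' ∧ t = t' := by
  have hc : Nat.Coprime p q := by
    rw [← Nat.isCoprime_iff_coprime]
    refine ⟨s, -t, ?_⟩
    have : (s : ℤ) * p = t * q + 1 := by exact_mod_cast h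
    linarith
  have hd : (q : ℤ) ∣ ((s : ℤ) - s') := by
    have h1 : (q : ℤ) ∣ ((s : ℤ) - s') * p := by
      refine ⟨(t : ℤ) - t', ?_⟩
      have e1 : (s : ℤ) * p = t * q + 1 := by exact_mod_cast h
      have e2 : (s' : ℤ) * p = t' * q + 1 := by exact_mod_cast h'
      linear_combination e1 - e2
    exact IsCoprime.dvd_of_dvd_mul_right (Nat.isCoprime_iff_coprime.2 hc.symm) h1
  have hs0 : s = s' := by
    have := Int.eq_zero_of_abs_lt_dvd hd (by rw [abs_lt]; constructor <;> omega)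
    omega
  subst hs0
  refine ⟨rfl, ?_⟩
  have : t * q = t' * q := by omega
  exact Nat.eq_of_mul_eq_mul_right hq this

theorem bezout_exists {p q : ℕ} (hp : 0 < p) (hq : 0 < q) (hc : Nat.Coprime p q) :
    ∃ s t : ℕ, s * p = t * q + 1 ∧ s ≤ q ∧ 1 ≤ s := by
  rcases Nat.lt_or_ge 1 q with h1 | h1
  · obtain ⟨m, hm⟩ := Nat.exists_mul_mod_eq_one_of_coprime hc h1
    have hm' : (m % q) * p % q = 1 := by
      rw [Nat.mod_mul_mod, mul_comm]
      exact hm.2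
    refine ⟨m % q, (m % q) * p / q, ?_, (Nat.mod_lt _ hq).le, ?_⟩
    · have := Nat.div_add_mod ((m % q) * p) q
      rw [hm'] at this
      linarith [mul_comm q ((m % q) * p / q)]
    · rcases Nat.eq_zero_or_pos (m % q) with h | h
      · rw [h] at hm'
        simp at hm'
      · exact h
  · have : q = 1 := by omega
    subst this
    exact ⟨1, p - 1, by omega, le_rfl, le_rfl⟩

theorem gcd_sfun : SFun (fun v : Fin 2 → ℕ => Nat.gcd (v 0) (v 1)) := by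
  -- variables: `p = w (inl 0)`, `q = w (inl 1)`, `g = w (inr ())`
  have hp : SFun (fun w : Fin 2 ⊕ Unit → ℕ => w (Sum.inl 0)) := SFun.proj _
  have hq : SFun (fun w : Fin 2 ⊕ Unit → ℕ => w (Sum.inl 1)) := SFun.proj _
  have hg : SFun (fun w : Fin 2 ⊕ Unit → ℕ => w (Sum.inr ())) := SFun.proj _
  have h0 : SFun (fun _ : Fin 2 ⊕ Unit → ℕ => 0) := SFun.const 0
  have a1 : SF (fun w : Fin 2 ⊕ Unit → ℕ => w (Sum.inl 0) = 0 ∧ w (Sum.inr ()) = w (Sum.inl 1)) :=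
    ((Dec.eqf hp h0).and (Dec.eqf hg hq)).1
  have a2 : SF (fun w : Fin 2 ⊕ Unit → ℕ => (¬ w (Sum.inl 0) = 0 ∧ w (Sum.inl 1) = 0) ∧
      w (Sum.inr ()) = w (Sum.inl 0)) :=
    (((Dec.eqf hp h0).not.and (Dec.eqf hq h0)).and (Dec.eqf hg hp)).1
  have a3 : SF (fun w : (Fin 2 ⊕ Unit) ⊕ Fin 4 → ℕ =>
      (¬ w (Sum.inl (Sum.inl 0)) = 0 ∧ ¬ w (Sum.inl (Sum.inl 1)) = 0) ∧
      (((w (Sum.inl (Sum.inl 0)) : ℤ) - w (Sum.inl (Sum.inr ())) * w (Sum.inr 0) = 0 ∧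
      (w (Sum.inl (Sum.inl 1)) : ℤ) - w (Sum.inl (Sum.inr ())) * w (Sum.inr 1) = 0) ∧
      ((w (Sum.inr 2) : ℤ) * w (Sum.inr 0) - w (Sum.inr 3) * w (Sum.inr 1) - 1 = 0 ∧
      (0 ≤ (w (Sum.inr 1) : ℤ) - w (Sum.inr 2) ∧ 0 ≤ (w (Sum.inr 2) : ℤ) - 1)))) := by
    refine SF.and ?_ (SF.and (SF.and (SF.eq0 ?_) (SF.eq0 ?_)) (SF.and (SF.eq0 ?_)
      (SF.and (SF.ge0 ?_) (SF.ge0 ?_))))
    · exact ((Dec.eqf (SFun.proj _) (SFun.const 0)).not.and
        (Dec.eqf (SFun.proj _) (SFun.const 0)).not).1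
    · exact (IsPoly.var _).sub ((IsPoly.var _).mul (IsPoly.var _))
    · exact (IsPoly.var _).sub ((IsPoly.var _).mul (IsPoly.var _))
    · exact (((IsPoly.var _).mul (IsPoly.var _)).sub ((IsPoly.var _).mul (IsPoly.var _))).sub
        (IsPoly.const 1)
    · exact (IsPoly.var _).sub (IsPoly.var _)
    · exact (IsPoly.var _).sub (IsPoly.const 1)
  -- arithmetic form of the certificate
  have hcert : ∀ (w : Fin 2 ⊕ Unit → ℕ) (d : Fin 4 → ℕ),
      ((¬ w (Sum.inl 0) = 0 ∧ ¬ w (Sum.inl 1) = 0) ∧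
      (((w (Sum.inl 0) : ℤ) - w (Sum.inr ()) * d 0 = 0 ∧
      (w (Sum.inl 1) : ℤ) - w (Sum.inr ()) * d 1 = 0) ∧
      ((d 2 : ℤ) * d 0 - d 3 * d 1 - 1 = 0 ∧
      (0 ≤ (d 1 : ℤ) - d 2 ∧ 0 ≤ (d 2 : ℤ) - 1)))) →
      w (Sum.inl 0) = w (Sum.inr ()) * d 0 ∧ w (Sum.inl 1) = w (Sum.inr ()) * d 1 ∧
      d 2 * d 0 = d 3 * d 1 + 1 ∧ d 2 ≤ d 1 ∧ 1 ≤ d 2 ∧ 0 < w (Sum.inr ()) := by
    rintro w d ⟨⟨h1, _⟩, ⟨h3, h4⟩, h5, h6, h7⟩
    have e3 : w (Sum.inl 0) = w (Sum.inr ()) * d 0 := by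
      have : (w (Sum.inl 0) : ℤ) = w (Sum.inr ()) * d 0 := by linarith
      exact_mod_cast this
    have e4 : w (Sum.inl 1) = w (Sum.inr ()) * d 1 := by
      have : (w (Sum.inl 1) : ℤ) = w (Sum.inr ()) * d 1 := by linarith
      exact_mod_cast this
    have e5 : d 2 * d 0 = d 3 * d 1 + 1 := by
      have : (d 2 : ℤ) * d 0 = d 3 * d 1 + 1 := by linarith
      exact_mod_cast this
    refine ⟨e3, e4, e5, by omega, by omega, ?_⟩
    rcases Nat.eq_zero_or_pos (w (Sum.inr ())) with h | h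
    · rw [h, zero_mul] at e3
      exact (h1 e3).elim
    · exact h
  have a4 := a3.ex (by
    intro w d d' h h'
    obtain ⟨b1, b2, b3, b4, b5, b6⟩ := hcert w d h
    obtain ⟨c1, c2, c3, c4, c5, _⟩ := hcert w d' h'
    have e0 : d 0 = d' 0 := Nat.eq_of_mul_eq_mul_left b6 (b1.symm.trans c1)
    have e1 : d 1 = d' 1 := Nat.eq_of_mul_eq_mul_left b6 (b2.symm.trans c2)
    rw [← e0, ← e1] at c3
    rw [← e1] at c4
    obtain ⟨e2, e3⟩ := bezout_unique (by omega) b3 c3 b4 b5 c4 c5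
    funext i
    fin_cases i
    · exact e0
    · exact e1
    · exact e2
    · exact e3)
  have a5 := a2.or_disj a4 (by
    rintro w ⟨⟨_, h1⟩, _⟩ ⟨d, ⟨⟨_, h2⟩, _⟩⟩
    exact h2 h1)
  have a6 := a1.or_disj a5 (by
    rintro w ⟨h1, _⟩ (⟨⟨h2, _⟩, _⟩ | ⟨d, ⟨⟨h2, _⟩, _⟩⟩)
    · exact h2 h1
    · exact h2 h1)
  refine a6.congr fun w => ?_
  show w (Sum.inr ()) = Nat.gcd (w (Sum.inl 0)) (w (Sum.inl 1)) ↔ _
  by_cases hp0 : w (Sum.inl 0) = 0
  · constructor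
    · intro h
      left
      refine ⟨hp0, ?_⟩
      rw [h, hp0, Nat.gcd_zero_left]
    · rintro (⟨_, h⟩ | ⟨⟨h, _⟩, _⟩ | ⟨d, ⟨⟨h, _⟩, _⟩⟩)
      · rw [h, hp0, Nat.gcd_zero_left]
      · exact (h hp0).elim
      · exact (h hp0).elim
  · by_cases hq0 : w (Sum.inl 1) = 0
    · constructor
      · intro h
        right
        left
        refine ⟨⟨hp0, hq0⟩, ?_⟩
        rw [h, hq0, Nat.gcd_zero_right]
      · rintro (⟨h, _⟩ | ⟨_, h⟩ | ⟨d, ⟨⟨_, h⟩, _⟩⟩)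
        · exact (hp0 h).elim
        · rw [h, hq0, Nat.gcd_zero_right]
        · exact (h hq0).elim
    · constructor
      · intro h
        right
        right
        have hgp : 0 < Nat.gcd (w (Sum.inl 0)) (w (Sum.inl 1)) :=
          Nat.gcd_pos_of_pos_left _ (Nat.pos_of_ne_zero hp0)
        obtain ⟨p', hp'⟩ := Nat.gcd_dvd_left (w (Sum.inl 0)) (w (Sum.inl 1))
        obtain ⟨q', hq'⟩ := Nat.gcd_dvd_right (w (Sum.inl 0)) (w (Sum.inl 1))
        have hc : Nat.Coprime p' q' := by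
          have h1 := Nat.coprime_div_gcd_div_gcd hgp
          have e1 : w (Sum.inl 0) / Nat.gcd (w (Sum.inl 0)) (w (Sum.inl 1)) = p' :=
            Nat.div_eq_of_eq_mul_right hgp hp'
          have e2 : w (Sum.inl 1) / Nat.gcd (w (Sum.inl 0)) (w (Sum.inl 1)) = q' :=
            Nat.div_eq_of_eq_mul_right hgp hq'
          rwa [e1, e2] at h1
        have hp1 : 0 < p' := Nat.pos_of_ne_zero fun h0 => hp0 (by rw [hp', h0, mul_zero])
        have hq1 : 0 < q' := Nat.pos_of_ne_zero fun h0 => hq0 (by rw [hq', h0, mul_zero])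
        obtain ⟨s, t, h1, h2, h3⟩ := bezout_exists hp1 hq1 hc
        refine ⟨![p', q', s, t], ⟨⟨hp0, hq0⟩, ⟨⟨?_, ?_⟩, ?_, ?_, ?_⟩⟩⟩
        · show (w (Sum.inl 0) : ℤ) - w (Sum.inr ()) * p' = 0
          rw [h]
          have : (w (Sum.inl 0) : ℤ) = (Nat.gcd (w (Sum.inl 0)) (w (Sum.inl 1)) : ℕ) * p' := by
            exact_mod_cast hp'
          linarith
        · show (w (Sum.inl 1) : ℤ) - w (Sum.inr ()) * q' = 0
          rw [h]
          have : (w (Sum.inl 1) : ℤ) = (Nat.gcd (w (Sum.inl 0)) (w (Sum.inl 1)) : ℕ) * q' := by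
            exact_mod_cast hq'
          linarith
        · show (s : ℤ) * p' - t * q' - 1 = 0
          have : (s : ℤ) * p' = t * q' + 1 := by exact_mod_cast h1
          linarith
        · show 0 ≤ (q' : ℤ) - s
          omega
        · show 0 ≤ (s : ℤ) - 1
          omega
      · rintro (⟨h, _⟩ | ⟨⟨_, h⟩, _⟩ | ⟨d, h⟩)
        · exact (hp0 h).elim
        · exact (hq0 h).elim
        · obtain ⟨b1, b2, b3, _, _, _⟩ := hcert w d h
          have hc : Nat.Coprime (d 0) (d 1) := by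
            rw [← Nat.isCoprime_iff_coprime]
            refine ⟨d 2, -d 3, ?_⟩
            have : (d 2 : ℤ) * d 0 = d 3 * d 1 + 1 := by exact_mod_cast b3
            linarith
          rw [b1, b2, Nat.gcd_mul_left, hc.gcd_eq_one, mul_one]

theorem natAbs_sfun {α : Type} {f : (α → ℕ) → ℤ} (hf : IsPoly f) :
    SFun (fun v => (f v).natAbs) := by
  refine (SF.eq0 (((IsPoly.var (Sum.inr () : α ⊕ Unit)).mul (IsPoly.var (Sum.inr ()))).sub
    ((hf.reindex Sum.inl).mul (hf.reindex Sum.inl)))).congr fun w => ?_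
  show w (Sum.inr ()) = (f fun i => w (Sum.inl i)).natAbs ↔ _
  rw [sub_eq_zero, ← pow_two, ← pow_two, ← Int.natAbs_eq_iff_sq_eq, Int.natAbs_natCast]

theorem Dec.dvd {α : Type} {F H : (α → ℕ) → ℕ} (hF : SFun F) (hH : SFun H) :
    Dec (fun v => F v ∣ H v) := by
  have h1 : IsPoly (fun w : Bool ⊕ Unit → ℕ =>
      (w (Sum.inl true) : ℤ) - (w (Sum.inl false) : ℤ) * (w (Sum.inr ()) : ℤ)) :=
    (IsPoly.var _).sub ((IsPoly.var _).mul (IsPoly.var _))
  have h2 := (ex_dec h1).comp (F := fun b => cond b H F) (by intro b; cases b <;> assumption)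
  refine h2.congr fun v => ?_
  show F v ∣ H v ↔ ∃ x : ℕ, (H v : ℤ) - (F v : ℤ) * (x : ℤ) = 0
  constructor
  · rintro ⟨x, hx⟩
    refine ⟨x, ?_⟩
    rw [hx]
    push_cast
    ring
  · rintro ⟨x, hx⟩
    refine ⟨x, ?_⟩
    have : (H v : ℤ) = F v * x := by linarith
    exact_mod_cast this

/-- Linear equations in two integer unknowns. -/
theorem lin_dec {α : Type} {A B C : (α → ℕ) → ℤ} (hA : IsPoly A) (hB : IsPoly B)
    (hC : IsPoly C) : Dec (fun v => ∃ x y : ℤ, A v * x + B v * y = C v) := by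
  have hg : SFun (fun v => Nat.gcd (A v).natAbs (B v).natAbs) :=
    gcd_sfun.comp (F := ![fun v => (A v).natAbs, fun v => (B v).natAbs]) (by
      intro i
      fin_cases i
      · exact natAbs_sfun hA
      · exact natAbs_sfun hB)
  refine (Dec.dvd hg (natAbs_sfun hC)).congr fun v => ?_
  show _ ↔ Int.gcd (A v) (B v) ∣ (C v).natAbs
  rw [Int.gcd_dvd_iff]
  constructor
  · rintro ⟨x, y, h⟩
    rcases Int.natAbs_eq (C v) with h1 | h1
    · exact ⟨x, y, by rw [← h1, h]⟩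
    · refine ⟨-x, -y, ?_⟩
      have : ((C v).natAbs : ℤ) = - C v := by omega
      rw [this, ← h]
      ring
  · rintro ⟨x, y, h⟩
    rcases Int.natAbs_eq (C v) with h1 | h1
    · exact ⟨x, y, by rw [h1, h]⟩
    · refine ⟨-x, -y, ?_⟩
      rw [h1, h]
      ring

theorem lin_fin {n : ℕ} (A B C : MvPolynomial (Fin n) ℤ) :
    SingleFold {a | ∃ x y : ℤ, eval (fun i => (a i : ℤ)) A * x + eval (fun i => (a i : ℤ)) B * y =
      eval (fun i => (a i : ℤ)) C} ∧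
    SingleFold {a | ¬ ∃ x y : ℤ, eval (fun i => (a i : ℤ)) A * x +
      eval (fun i => (a i : ℤ)) B * y = eval (fun i => (a i : ℤ)) C} := by
  have h := lin_dec (α := Fin n) (A := fun a => eval (fun i => (a i : ℤ)) A)
    (B := fun a => eval (fun i => (a i : ℤ)) B) (C := fun a => eval (fun i => (a i : ℤ)) C)
    ⟨A, fun _ => rfl⟩ ⟨B, fun _ => rfl⟩ ⟨C, fun _ => rfl⟩
  exact ⟨(singleFold_iff _).2 h.1, (singleFold_iff _).2 h.2⟩

theorem gcd_fin : SingleFold (graph fun a : Fin 2 → ℕ => Nat.gcd (a 0) (a 1)) :=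
  (graph_iff _).2 gcd_sfun

end P345
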