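import Mathlib

/-! Integer sequences killed by a power of the difference operator: sign changes. -/

namespace P345

def D (g : ℕ → ℤ) (x : ℕ) : ℤ := g (x + 1) - g x

def K : ℕ → (ℕ → ℤ) → Prop
  | 0, g => ∀ x, g x = 0
  | (d + 1), g => K d (D g)

theorem K_succ : ∀ (d : ℕ) (g : ℕ → ℤ), K d g → K (d + 1) g
  | 0, g, h => by
    have h' : ∀ x, g x = 0 := h
    show ∀ x, D g x = 0
    intro x
    simp [D, h' (x + 1), h' x]
  | (d + 1), g, h => K_succ d (D g) h

theorem K_mono {d e : ℕ} (h : d ≤ e) {g : ℕ → ℤ} (hg : K d g) : K e g := by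
  induction h with
  | refl => exact hg
  | step _ ih => exact K_succ _ _ ih

theorem K_add : ∀ (d : ℕ) (g h : ℕ → ℤ), K d g → K d h → K d (fun x => g x + h x)
  | 0, g, h, hg, hh => by
    have hg' : ∀ x, g x = 0 := hg
    have hh' : ∀ x, h x = 0 := hh
    show ∀ x, g x + h x = 0
    intro x
    simp [hg' x, hh' x]
  | (d + 1), g, h, hg, hh => by
    show K d (D _)
    have : D (fun x => g x + h x) = fun x => D g x + D h x := by
      funext x
      simp only [D]
      ring
    rw [this]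
    exact K_add d _ _ hg hh

theorem K_mul (c : ℤ) : ∀ (d : ℕ) (g : ℕ → ℤ), K d g → K d (fun x => c * g x)
  | 0, g, hg => by
    have hg' : ∀ x, g x = 0 := hg
    show ∀ x, c * g x = 0
    intro x
    simp [hg' x]
  | (d + 1), g, hg => by
    show K d (D _)
    have : D (fun x => c * g x) = fun x => c * D g x := by
      funext x
      simp only [D]
      ring
    rw [this]
    exact K_mul c d _ hg

theorem K_shift : ∀ (d : ℕ) (g : ℕ → ℤ), K d g → K d (fun x => g (x + 1))
  | 0, g, hg => by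
    have hg' : ∀ x, g x = 0 := hg
    show ∀ x, g (x + 1) = 0
    intro x
    exact hg' _
  | (d + 1), g, hg => by
    show K d (D _)
    have : D (fun x => g (x + 1)) = fun x => D g (x + 1) := by
      funext x
      simp only [D]
    rw [this]
    exact K_shift d _ hg

theorem K_X : ∀ (d : ℕ) (g : ℕ → ℤ), K d g → K (d + 1) (fun x => (x : ℤ) * g x)
  | 0, g, hg => by
    have hg' : ∀ x, g x = 0 := hg
    refine K_succ 0 _ ?_
    show ∀ x : ℕ, (x : ℤ) * g x = 0
    intro x
    simp [hg' x]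
  | (d + 1), g, hg => by
    show K (d + 1) (D _)
    have : D (fun x : ℕ => (x : ℤ) * g x) = fun x : ℕ => (x : ℤ) * D g x + g (x + 1) := by
      funext x
      simp only [D]
      push_cast
      ring
    rw [this]
    exact K_add (d + 1) _ _ (K_X d _ hg) (K_shift (d + 1) g hg)

theorem K_neg1 (d : ℕ) (g : ℕ → ℤ) (hg : K (d + 1) g) : K (d + 1) (fun x => - g x - 1) := by
  show K d (D _)
  have : D (fun x => - g x - 1) = fun x => (-1) * D g x := by
    funext x
    simp only [D]
    ring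
  rw [this]
  exact K_mul _ d _ hg

theorem const_of_D {h : ℕ → ℤ} (hD : ∀ x, D h x = 0) (x : ℕ) : h x = h 0 := by
  induction x with
  | zero => rfl
  | succ x ih =>
    have := hD x
    simp only [D] at this
    linarith

theorem K_ev : ∀ (m : ℕ) (h : ℕ → ℤ), K m h → ∀ M, (∀ x, M ≤ x → h x = 0) → ∀ x, h x = 0
  | 0, _, hk, _, _ => hk
  | (m + 1), h, hk, M, hM => by
    have h1 : ∀ x, D h x = 0 := K_ev m (D h) hk M (fun x hx => by
      simp [D, hM x hx, hM (x + 1) (by omega)])
    intro x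
    rw [const_of_D h1 x, ← const_of_D h1 M]
    exact hM M le_rfl

theorem K_init : ∀ (m : ℕ) (h : ℕ → ℤ), K m h → (∀ i < m, h i = 0) → ∀ x, h x = 0
  | 0, _, hk, _ => hk
  | (m + 1), h, hk, hi => by
    have h1 : ∀ x, D h x = 0 := K_init m (D h) hk (fun i hi' => by
      simp [D, hi i (by omega), hi (i + 1) (by omega)])
    intro x
    rw [const_of_D h1 x]
    exact hi 0 (by omega)

theorem le_of_D {g : ℕ → ℤ} {a b : ℕ} (hab : a ≤ b) (h : ∀ y, a ≤ y → y < b → 0 ≤ D g y) :
    g a ≤ g b := by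
  induction b, hab using Nat.le_induction with
  | base => exact le_rfl
  | succ n hn ih =>
    have h1 := ih fun y hy hy' => h y hy (by omega)
    have h2 := h n hn (by omega)
    simp only [D] at h2
    linarith

theorem ge_of_D {g : ℕ → ℤ} {a b : ℕ} (hab : a ≤ b) (h : ∀ y, a ≤ y → y < b → D g y < 0) :
    g b ≤ g a := by
  induction b, hab using Nat.le_induction with
  | base => exact le_rfl
  | succ n hn ih =>
    have h1 := ih fun y hy hy' => h y hy (by omega)
    have h2 := h n hn (by omega)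
    simp only [D] at h2
    linarith

theorem K_bdd {m : ℕ} {g : ℕ → ℤ} (hk : K m (D g)) (L : ℕ) (h1 : ∀ y, L ≤ y → 0 ≤ D g y)
    (h2 : ∀ y, L ≤ y → g y < 0) : ∀ x, D g x = 0 := by
  classical
  have hex : ∃ k : ℕ, ∃ x, L ≤ x ∧ (- g x).toNat = k := ⟨_, L, le_rfl, rfl⟩
  obtain ⟨M, hM, hk'⟩ := Nat.find_spec hex
  have hmin : ∀ x, L ≤ x → Nat.find hex ≤ (- g x).toNat :=
    fun x hx => Nat.find_min' hex ⟨x, hx, rfl⟩
  have hc : ∀ x, M ≤ x → g x = g M := by
    intro x hx
    have e1 := le_of_D hx fun y hy _ => h1 y (hM.trans hy)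
    have e2 := hmin x (hM.trans hx)
    have e3 := h2 x (hM.trans hx)
    have e4 := h2 M hM
    rw [← hk'] at e2
    omega
  exact K_ev m (D g) hk M fun x hx => by
    simp only [D]
    rw [hc x hx, hc (x + 1) (by omega)]
    ring

open Classical in
/-- `1 +` the first `x ≥ u` with `g x ≥ 0`, or `0` if there is none. -/
noncomputable def first (g : ℕ → ℤ) (u : ℕ) : ℕ :=
  if h : ∃ x, u ≤ x ∧ 0 ≤ g x then Nat.find h + 1 else 0

theorem first_eq {g : ℕ → ℤ} {u x : ℕ} (h1 : u ≤ x) (h2 : 0 ≤ g x)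
    (h3 : ∀ y, u ≤ y → y < x → g y < 0) : first g u = x + 1 := by
  classical
  have hex : ∃ x, u ≤ x ∧ 0 ≤ g x := ⟨x, h1, h2⟩
  have : Nat.find hex = x := by
    rw [Nat.find_eq_iff]
    refine ⟨⟨h1, h2⟩, fun n hn hn' => ?_⟩
    have := h3 n hn'.1 hn
    omega
  rw [first, dif_pos hex]
  congr 1

theorem first_zero {g : ℕ → ℤ} {u : ℕ} (h : ∀ x, u ≤ x → g x < 0) : first g u = 0 := by
  rw [first, dif_neg]
  rintro ⟨x, h1, h2⟩
  have := h x h1
  omega

theorem first_spec (g : ℕ → ℤ) (u : ℕ) :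
    (∃ x, u ≤ x ∧ 0 ≤ g x ∧ (∀ y, u ≤ y → y < x → g y < 0) ∧ first g u = x + 1) ∨
    ((∀ x, u ≤ x → g x < 0) ∧ first g u = 0) := by
  classical
  by_cases h : ∃ x, u ≤ x ∧ 0 ≤ g x
  · left
    have hs := Nat.find_spec h
    have hm : ∀ y, u ≤ y → y < Nat.find h → g y < 0 := by
      intro y hy hy'
      by_contra hc
      exact Nat.find_min h hy' ⟨hy, by omega⟩
    exact ⟨Nat.find h, hs.1, hs.2, hm, first_eq hs.1 hs.2 hm⟩
  · right
    have : ∀ x, u ≤ x → g x < 0 := by
      intro x hx
      by_contra hc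
      exact h ⟨x, hx, by omega⟩
    exact ⟨this, first_zero this⟩

/-- The next point after `v` where the sign class of `h` changes (`v` itself if there is none). -/
noncomputable def nxt (h : ℕ → ℤ) (v : ℕ) : ℕ :=
  if 0 ≤ h v then
    (if first (fun x => - h x - 1) v = 0 then v else first (fun x => - h x - 1) v - 1)
  else (if first h v = 0 then v else first h v - 1)

theorem nxt_spec (h : ℕ → ℤ) (v : ℕ) :
    v ≤ nxt h v ∧ (∀ y, v ≤ y → y < nxt h v → (0 ≤ h y ↔ 0 ≤ h v)) ∧
    ((nxt h v = v ∧ ∀ y, v ≤ y → (0 ≤ h y ↔ 0 ≤ h v)) ∨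
      (v < nxt h v ∧ ¬ (0 ≤ h (nxt h v) ↔ 0 ≤ h v))) := by
  by_cases hv : 0 ≤ h v
  · rcases first_spec (fun x => - h x - 1) v with ⟨x, h1, h2, h3, h4⟩ | ⟨h1, h2⟩
    · have e : nxt h v = x := by
        rw [nxt, if_pos hv, h4]
        simp
      rw [e]
      have hne : v ≠ x := by
        rintro rfl
        have : 0 ≤ - h v - 1 := h2
        omega
      have h2' : 0 ≤ - h x - 1 := h2
      refine ⟨h1, fun y hy hy' => ?_, Or.inr ⟨by omega, by omega⟩⟩
      have : - h y - 1 < 0 := h3 y hy hy'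
      omega
    · have e : nxt h v = v := by
        rw [nxt, if_pos hv, h2]
        simp
      rw [e]
      refine ⟨le_rfl, fun y hy hy' => by omega, Or.inl ⟨rfl, fun y hy => ?_⟩⟩
      have : - h y - 1 < 0 := h1 y hy
      omega
  · rcases first_spec h v with ⟨x, h1, h2, h3, h4⟩ | ⟨h1, h2⟩
    · have e : nxt h v = x := by
        rw [nxt, if_neg hv, h4]
        simp
      rw [e]
      have hne : v ≠ x := by
        rintro rfl
        exact hv h2
      refine ⟨h1, fun y hy hy' => ?_, Or.inr ⟨by omega, by omega⟩⟩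
      have := h3 y hy hy'
      omega
    · have e : nxt h v = v := by
        rw [nxt, if_neg hv, h2]
        simp
      rw [e]
      refine ⟨le_rfl, fun y hy hy' => by omega, Or.inl ⟨rfl, fun y hy => ?_⟩⟩
      have := h1 y hy
      omega

/-- Iterated sign changes. -/
noncomputable def it (h : ℕ → ℤ) (u : ℕ) : ℕ → ℕ
  | 0 => u
  | (j + 1) => nxt h (it h u j)

theorem it_le (h : ℕ → ℤ) (u j : ℕ) : it h u j ≤ it h u (j + 1) := (nxt_spec h _).1

theorem u_le_it (h : ℕ → ℤ) (u j : ℕ) : u ≤ it h u j := by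
  induction j with
  | zero => exact le_rfl
  | succ j ih => exact ih.trans (it_le h u j)

def Alt (m : ℕ) (h : ℕ → ℤ) : Prop :=
  ∃ s : ℕ → ℕ, (∀ j < m, s j < s (j + 1)) ∧ ∀ j < m, ¬ (0 ≤ h (s (j + 1)) ↔ 0 ≤ h (s j))

theorem tele {h : ℕ → ℤ} {a b : ℕ} (hab : a < b) (hc : ¬ (0 ≤ h b ↔ 0 ≤ h a)) :
    ∃ z, a ≤ z ∧ z < b ∧ (0 ≤ D h z ↔ 0 ≤ h b) := by
  by_contra hz
  push Not at hz
  by_cases hb : 0 ≤ h b
  · have := ge_of_D hab.le (g := h) fun y hy hy' => by
      rcases hz y hy hy' with h' | h' <;> omega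
    omega
  · have := le_of_D hab.le (g := h) fun y hy hy' => by
      rcases hz y hy hy' with h' | h' <;> omega
    omega

theorem Alt.D {m : ℕ} {h : ℕ → ℤ} (ha : Alt (m + 1) h) : Alt m (D h) := by
  obtain ⟨s, h1, h2⟩ := ha
  have h3 : ∀ j, ∃ z, j < m + 1 → s j ≤ z ∧ z < s (j + 1) ∧ (0 ≤ P345.D h z ↔ 0 ≤ h (s (j + 1))) := by
    intro j
    by_cases hj : j < m + 1
    · obtain ⟨z, hz⟩ := tele (h1 j hj) (h2 j hj)
      exact ⟨z, fun _ => hz⟩
    · exact ⟨0, fun h => (hj h).elim⟩
  choose z hz using h3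
  refine ⟨z, fun j hj => ?_, fun j hj => ?_⟩
  · exact lt_of_lt_of_le (hz j (by omega)).2.1 (hz (j + 1) (by omega)).1
  · rw [(hz j (by omega)).2.2, (hz (j + 1) (by omega)).2.2]
    exact h2 (j + 1) (by omega)

theorem K_not_alt : ∀ (d : ℕ) (h : ℕ → ℤ), K d h → ¬ Alt (d + 1) h
  | 0, h, hk => by
    rintro ⟨s, _, h2⟩
    have hk' : ∀ x, h x = 0 := hk
    apply h2 0 (by omega)
    rw [hk', hk']
  | (d + 1), h, hk => fun ha => K_not_alt d (D h) hk ha.D

theorem it_last {d : ℕ} {h : ℕ → ℤ} (hk : K d h) (u : ℕ) :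
    ∀ y, it h u (d + 1) ≤ y → (0 ≤ h y ↔ 0 ≤ h (it h u (d + 1))) := by
  have hex : ∃ j, j < d + 1 ∧ nxt h (it h u j) = it h u j := by
    by_contra hc
    push Not at hc
    refine K_not_alt d h hk ⟨it h u, fun j hj => ?_, fun j hj => ?_⟩
    · rcases (nxt_spec h (it h u j)).2.2 with h' | h'
      · exact (hc j hj h'.1).elim
      · exact h'.1
    · rcases (nxt_spec h (it h u j)).2.2 with h' | h'
      · exact (hc j hj h'.1).elim
      · exact h'.2
  obtain ⟨j, hj, he⟩ := hex
  have hst : ∀ k, it h u (j + k) = it h u j := by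
    intro k
    induction k with
    | zero => rfl
    | succ k ih =>
      show nxt h (it h u (j + k)) = it h u j
      rw [ih, he]
  have e : it h u (d + 1) = it h u j := by
    have := hst (d + 1 - j)
    rwa [Nat.add_sub_cancel' hj.le] at this
  rw [e]
  rcases (nxt_spec h (it h u j)).2.2 with h' | h'
  · exact h'.2
  · rw [he] at h'
    exact (lt_irrefl _ h'.1).elim

theorem seg {g : ℕ → ℤ} {p q : ℕ} (hc : ∀ y, p ≤ y → y < q → (0 ≤ D g y ↔ 0 ≤ D g p))
    (h1 : g p < 0) (h2 : g (q - 1) < 0) : ∀ y, p ≤ y → y < q → g y < 0 := by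
  intro y hy hy'
  by_cases hp : 0 ≤ D g p
  · have := le_of_D (g := g) (a := y) (b := q - 1) (by omega) fun z hz hz' =>
      (hc z (by omega) (by omega)).2 hp
    omega
  · have := ge_of_D (g := g) (a := p) (b := y) hy fun z hz hz' => by
      have := hc z hz (by omega)
      omega
    omega

/-- Quantifier-free form of `g < 0 on [u, x)`. -/
theorem char {N : ℕ} {g : ℕ → ℤ} {u x : ℕ}
    (hl : ∀ y, it (D g) u N ≤ y → (0 ≤ D g y ↔ 0 ≤ D g (it (D g) u N))) :
    (∀ y, u ≤ y → y < x → g y < 0) ↔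
    (∀ j < N, it (D g) u j < x → it (D g) u j < it (D g) u (j + 1) →
      g (it (D g) u j) < 0 ∧
        g ((if it (D g) u (j + 1) < x then it (D g) u (j + 1) else x) - 1) < 0) ∧
    (it (D g) u N < x → g (it (D g) u N) < 0 ∧ g (x - 1) < 0) := by
  constructor
  · intro h
    refine ⟨fun j _ h1 h2 => ?_, fun h1 => ?_⟩
    · have hu := u_le_it (D g) u j
      refine ⟨h _ hu h1, h _ ?_ ?_⟩
      · split_ifs <;> omega
      · split_ifs <;> omega
    · have hu := u_le_it (D g) u N
      exact ⟨h _ hu h1, h _ (by omega) (by omega)⟩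
  · rintro ⟨h1, h2⟩
    have key : ∀ k ≤ N, ∀ y, u ≤ y → y < it (D g) u k → y < x → g y < 0 := by
      intro k
      induction k with
      | zero =>
        intro _ y hy hy' _
        have : it (D g) u 0 = u := rfl
        omega
      | succ k ih =>
        intro hk y hy hy' hyx
        by_cases hc : y < it (D g) u k
        · exact ih (by omega) y hy hc hyx
        · push Not at hc
          have hs := nxt_spec (D g) (it (D g) u k)
          obtain ⟨a, b⟩ := h1 k (by omega) (by omega) (by omega)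
          refine seg (p := it (D g) u k)
            (q := if it (D g) u (k + 1) < x then it (D g) u (k + 1) else x) ?_ a b y hc ?_
          · intro z hz hz'
            refine hs.2.1 z hz ?_
            show z < it (D g) u (k + 1)
            split_ifs at hz' <;> omega
          · split_ifs <;> omega
    intro y hy hyx
    by_cases hc : y < it (D g) u N
    · exact key N le_rfl y hy hc hyx
    · push Not at hc
      obtain ⟨a, b⟩ := h2 (by omega)
      exact seg (p := it (D g) u N) (q := x) (fun z hz _ => hl z hz) a b y hc hyx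

/-- Quantifier-free form of `g < 0 on [u, ∞)`. -/
theorem charN {N : ℕ} {g : ℕ → ℤ} {u : ℕ} (hk : K N (D g))
    (hl : ∀ y, it (D g) u N ≤ y → (0 ≤ D g y ↔ 0 ≤ D g (it (D g) u N))) :
    (∀ y, u ≤ y → g y < 0) ↔
    (∀ j < N, it (D g) u j < it (D g) u (j + 1) →
      g (it (D g) u j) < 0 ∧ g (it (D g) u (j + 1) - 1) < 0) ∧
    g (it (D g) u N) < 0 ∧ (¬ 0 ≤ D g (it (D g) u N) ∨ ∀ i < N, D g i = 0) := by
  constructor
  · intro h
    refine ⟨fun j _ h1 => ⟨h _ (u_le_it _ _ _), h _ ?_⟩, h _ (u_le_it _ _ _), ?_⟩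
    · have hu := u_le_it (D g) u j
      omega
    · by_cases hc : 0 ≤ D g (it (D g) u N)
      · right
        have := K_bdd hk (it (D g) u N) (fun y hy => (hl y hy).2 hc)
          (fun y hy => h y ((u_le_it _ _ _).trans hy))
        exact fun i _ => this i
      · exact Or.inl hc
  · rintro ⟨h1, h2, h3⟩
    have key : ∀ k ≤ N, ∀ y, u ≤ y → y < it (D g) u k → g y < 0 := by
      intro k
      induction k with
      | zero =>
        intro _ y hy hy'
        have : it (D g) u 0 = u := rfl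
        omega
      | succ k ih =>
        intro hk y hy hy'
        by_cases hc : y < it (D g) u k
        · exact ih (by omega) y hy hc
        · push Not at hc
          have hs := nxt_spec (D g) (it (D g) u k)
          obtain ⟨a, b⟩ := h1 k (by omega) (by omega)
          exact seg (p := it (D g) u k) (q := it (D g) u (k + 1)) (fun z hz hz' => hs.2.1 z hz hz')
            a b y hc hy'
    intro y hy
    by_cases hc : y < it (D g) u N
    · exact key N le_rfl y hy hc
    · push Not at hc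
      rcases h3 with h3 | h3
      · have := ge_of_D (g := g) hc fun z hz _ => by
          have := hl z hz
          omega
        omega
      · have h4 := const_of_D (K_init N (D g) hk h3)
        rw [h4 y, ← h4 (it (D g) u N)]
        exact h2

end P345
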