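import Vale.Agent.P345.Basic
import Vale.Agent.P345.Seq

/-! The first point where a polynomial is nonnegative is a single-fold function. -/

namespace P345

open MvPolynomial

/-- The sequence `x ↦ G(v, x)`. -/
def sq {α : Type} (G : (α ⊕ Unit → ℕ) → ℤ) (v : α → ℕ) : ℕ → ℤ :=
  fun x => G (Sum.elim v (fun _ => x))

theorem poly_D {α : Type} {G : (α ⊕ Unit → ℕ) → ℤ} (hG : IsPoly G) :
    ∃ H : (α ⊕ Unit → ℕ) → ℤ, IsPoly H ∧ ∀ v, sq H v = D (sq G v) := by
  have h : IsPoly (fun w : α ⊕ Unit → ℕ => G (fun i =>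
      (Sum.elim (fun i w => w (Sum.inl i)) (fun _ w => w (Sum.inr ()) + 1) :
        α ⊕ Unit → (α ⊕ Unit → ℕ) → ℕ) i w)) := by
    refine hG.subst _ ?_
    rintro (i | i)
    · exact IsPoly.var (Sum.inl i)
    · have := (IsPoly.var (Sum.inr () : α ⊕ Unit)).add (IsPoly.const 1)
      simpa using this
  refine ⟨_, h.sub hG, fun v => ?_⟩
  funext x
  simp only [sq, D]
  congr 2
  funext i
  rcases i with i | i <;> rfl

theorem poly_neg1 {α : Type} {G : (α ⊕ Unit → ℕ) → ℤ} (hG : IsPoly G) :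
    ∃ H : (α ⊕ Unit → ℕ) → ℤ, IsPoly H ∧ ∀ v, sq H v = fun x => - sq G v x - 1 :=
  ⟨_, hG.neg.sub (IsPoly.const 1), fun _ => rfl⟩

theorem poly_K {α : Type} {G : (α ⊕ Unit → ℕ) → ℤ} (hG : IsPoly G) :
    ∃ d, ∀ v, K d (sq G v) := by
  obtain ⟨P, hP⟩ := hG
  have key : ∀ Q : MvPolynomial (α ⊕ Unit) ℤ,
      ∃ d, ∀ v, K d (sq (fun w => MvPolynomial.eval (fun i => (w i : ℤ)) Q) v) := by
    intro Q
    induction Q using MvPolynomial.induction_on with
    | C a =>
      refine ⟨1, fun v => ?_⟩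
      show ∀ x, D _ x = 0
      intro x
      simp [D, sq]
    | add p q hp hq =>
      obtain ⟨d, hd⟩ := hp
      obtain ⟨e, he⟩ := hq
      refine ⟨max d e, fun v => ?_⟩
      have := K_add (max d e) _ _ (K_mono (le_max_left d e) (hd v))
        (K_mono (le_max_right d e) (he v))
      refine cast ?_ this
      congr 1
      funext x
      simp [sq]
    | mul_X p n hp =>
      obtain ⟨d, hd⟩ := hp
      refine ⟨d + 1, fun v => ?_⟩
      rcases n with i | i
      · have := K_mul (v i : ℤ) (d + 1) _ (K_succ d _ (hd v))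
        refine cast ?_ this
        congr 1
        funext x
        simp [sq, mul_comm]
      · have := K_X d _ (hd v)
        refine cast ?_ this
        congr 1
        funext x
        simp [sq, mul_comm]
  obtain ⟨d, hd⟩ := key P
  refine ⟨d, fun v => ?_⟩
  have : sq G v = sq (fun w => MvPolynomial.eval (fun i => (w i : ℤ)) P) v := by
    funext x
    exact hP _
  rw [this]
  exact hd v

/-- Sign condition at a single-fold point. -/
theorem Dec.at' {α γ : Type} [Fintype α] {G : (α ⊕ Unit → ℕ) → ℤ} (hG : IsPoly G) (e : α → γ)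
    {F : (γ → ℕ) → ℕ} (hF : SFun F) :
    Dec (fun w : γ → ℕ => 0 ≤ sq G (fun i => w (e i)) (F w)) := by
  have h := (Dec.ge0 hG).comp (α := γ)
    (F := Sum.elim (fun i w => w (e i)) (fun _ => F)) (by
      rintro (i | i)
      · exact SFun.proj (e i)
      · exact hF)
  refine h.congr fun w => ?_
  have : (fun c => (Sum.elim (fun i w => w (e i)) (fun _ => F) :
      α ⊕ Unit → (γ → ℕ) → ℕ) c w) = Sum.elim (fun i => w (e i)) (fun _ => F w) := by
    funext i
    rcases i with i | i <;> rfl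
  rw [this]
  exact Iff.rfl

/-- Main induction. -/
theorem first_sfun (d : ℕ) : ∀ {α : Type} [Fintype α] (G : (α ⊕ Unit → ℕ) → ℤ), IsPoly G →
    (∀ v, K (d + 1) (sq G v)) → ∀ u : (α → ℕ) → ℕ, SFun u →
    SFun (fun v => first (sq G v) (u v)) := by
  induction d with
  | zero =>
    intro α _ G hG hK u hu
    have hc : ∀ v x y, sq G v x = sq G v y := by
      intro v x y
      have h : ∀ x, D (sq G v) x = 0 := hK v
      rw [const_of_D h x, const_of_D h y]
    refine SFun.ite (Dec.at' hG id hu) hu.succ (SFun.const 0) _ ?_ ?_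
    · intro v hv
      exact first_eq le_rfl hv fun y h1 h2 => by omega
    · intro v hv
      refine first_zero fun x _ => ?_
      have hv' : ¬ 0 ≤ sq G v (u v) := hv
      rw [hc v x (u v)]
      omega
  | succ d ih =>
    intro α _ G hG hK u hu
    obtain ⟨H, hH, hHD⟩ := poly_D hG
    obtain ⟨H', hH', hHN⟩ := poly_neg1 hH
    have hKH : ∀ v, K (d + 1) (sq H v) := fun v => by rw [hHD]; exact hK v
    have hKH' : ∀ v, K (d + 1) (sq H' v) := fun v => by
      rw [hHN]
      exact K_neg1 d _ (hKH v)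
    -- the sign changes are single-fold functions
    have hnxt : ∀ F : (α → ℕ) → ℕ, SFun F → SFun (fun v => nxt (sq H v) (F v)) := by
      intro F hF
      have a1 := ih H' hH' hKH' F hF
      have a2 := ih H hH hKH F hF
      have b1 : SFun (fun v => if first (sq H' v) (F v) = 0 then F v
          else first (sq H' v) (F v) - 1) :=
        SFun.ite (Dec.eqf a1 (SFun.const 0)) hF a1.pred _ (fun v hv => if_pos hv)
          (fun v hv => if_neg hv)
      have b2 : SFun (fun v => if first (sq H v) (F v) = 0 then F v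
          else first (sq H v) (F v) - 1) :=
        SFun.ite (Dec.eqf a2 (SFun.const 0)) hF a2.pred _ (fun v hv => if_pos hv)
          (fun v hv => if_neg hv)
      refine SFun.ite (Dec.at' hH id hF) b1 b2 _ ?_ ?_
      · intro v hv
        have hv' : 0 ≤ sq H v (F v) := hv
        rw [nxt, if_pos hv', hHN]
      · intro v hv
        have hv' : ¬ 0 ≤ sq H v (F v) := hv
        rw [nxt, if_neg hv']
    have hit : ∀ j, SFun (fun v => it (sq H v) (u v) j) := by
      intro j
      induction j with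
      | zero => exact hu
      | succ j ihj => exact hnxt _ ihj
    set N := d + 2 with hN
    have hl : ∀ v, ∀ y, it (sq H v) (u v) N ≤ y →
        (0 ≤ sq H v y ↔ 0 ≤ sq H v (it (sq H v) (u v) N)) := fun v =>
      it_last (d := d + 1) (hKH v) (u v)
    -- the relation: first point
    let X : (α ⊕ Unit → ℕ) → ℕ := fun w => w (Sum.inr ())
    have hX : SFun X := SFun.proj _
    let V : ℕ → (α ⊕ Unit → ℕ) → ℕ := fun j w =>
      it (sq H (fun i => w (Sum.inl i))) (u (fun i => w (Sum.inl i))) j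
    have hV : ∀ j, SFun (V j) := fun j => (hit j).reindex Sum.inl
    let U : (α ⊕ Unit → ℕ) → ℕ := fun w => u (fun i => w (Sum.inl i))
    have hU : SFun U := hu.reindex Sum.inl
    let W : ℕ → (α ⊕ Unit → ℕ) → ℕ := fun j w => if V (j + 1) w < X w then V (j + 1) w else X w
    have hW : ∀ j, SFun (W j) := fun j =>
      SFun.ite (Dec.lt (hV (j + 1)) hX) (hV (j + 1)) hX _ (fun v hv => if_pos hv)
        (fun v hv => if_neg hv)
    let g : (α ⊕ Unit → ℕ) → ℕ → ℤ := fun w => sq G (fun i => w (Sum.inl i))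
    have hg : ∀ {F : (α ⊕ Unit → ℕ) → ℕ}, SFun F → Dec (fun w => g w (F w) < 0) := fun hF =>
      (Dec.at' hG Sum.inl hF).not.congr fun w => by
        show g w _ < 0 ↔ ¬ 0 ≤ g w _
        exact not_le.symm
    let R : (α ⊕ Unit → ℕ) → Prop := fun w =>
      ¬ X w < U w ∧ ¬ g w (X w) < 0 ∧
      ((∀ j < N, V j w < X w → V j w < V (j + 1) w → g w (V j w) < 0 ∧ g w (W j w - 1) < 0) ∧
      (V N w < X w → g w (V N w) < 0 ∧ g w (X w - 1) < 0))
    have hR : Dec R := by
      refine ((Dec.lt hX hU).not).and ((hg hX).not.and (Dec.and ?_ ?_))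
      · refine Dec.all N fun j _ => ?_
        exact (Dec.lt (hV j) hX).imp ((Dec.lt (hV j) (hV (j + 1))).imp
          ((hg (hV j)).and (hg (hW j).pred)))
      · exact (Dec.lt (hV N) hX).imp ((hg (hV N)).and (hg hX.pred))
    have hRiff : ∀ (v : α → ℕ) (x : ℕ), R (Sum.elim v (fun _ => x)) ↔
        (u v ≤ x ∧ 0 ≤ sq G v x ∧ ∀ y, u v ≤ y → y < x → sq G v y < 0) := by
      intro v x
      have hch := char (N := N) (g := sq G v) (u := u v) (x := x)
        (by rw [← hHD]; exact hl v)
      rw [hch, ← hHD]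
      show (¬ x < u v ∧ ¬ sq G v x < 0 ∧ _) ↔ _
      rw [not_lt, not_lt]
      exact Iff.rfl
    -- the relation: no point
    let g0 : (α → ℕ) → ℕ → ℤ := fun v => sq G v
    have hg0 : ∀ {F : (α → ℕ) → ℕ}, SFun F → Dec (fun v => g0 v (F v) < 0) := fun hF =>
      (Dec.at' hG id hF).not.congr fun w => by
        show g0 w _ < 0 ↔ ¬ 0 ≤ g0 w _
        exact not_le.symm
    let V0 : ℕ → (α → ℕ) → ℕ := fun j v => it (sq H v) (u v) j
    let Nn : (α → ℕ) → Prop := fun v =>
      (∀ j < N, V0 j v < V0 (j + 1) v → g0 v (V0 j v) < 0 ∧ g0 v (V0 (j + 1) v - 1) < 0) ∧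
      g0 v (V0 N v) < 0 ∧ (¬ 0 ≤ sq H v (V0 N v) ∨ ∀ i < N, sq H v i = 0)
    have hNn : Dec Nn := by
      refine (Dec.all N fun j _ => ?_).and ((hg0 (hit N)).and
        ((Dec.at' hH id (hit N)).not.or (Dec.all N fun j _ => ?_)))
      · exact (Dec.lt (hit j) (hit (j + 1))).imp ((hg0 (hit j)).and (hg0 (hit (j + 1)).pred))
      · exact ((Dec.at' hH id (SFun.const j)).and
          (Dec.at' hH.neg id (SFun.const j))).congr fun v => by
            show sq H v j = 0 ↔ (0 ≤ sq H v j ∧ 0 ≤ - sq H v j)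
            constructor <;> intro h <;> omega
    have hNiff : ∀ v, Nn v ↔ ∀ y, u v ≤ y → sq G v y < 0 := by
      intro v
      have hch := charN (N := N) (g := sq G v) (u := u v)
        (by rw [← hHD]; exact K_succ _ _ (hKH v)) (by rw [← hHD]; exact hl v)
      rw [hch, ← hHD]
    refine SFun.search hR.1 hNn.1 ?_ ?_ _ ?_ ?_
    · intro v x x' h h'
      obtain ⟨h1, h2, h3⟩ := (hRiff v x).1 h
      obtain ⟨k1, k2, k3⟩ := (hRiff v x').1 h'
      by_contra hne
      rcases lt_or_gt_of_ne hne with hlt | hlt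
      · have := k3 x h1 hlt
        omega
      · have := h3 x' k1 hlt
        omega
    · intro v
      rw [hNiff]
      constructor
      · intro h x hx
        obtain ⟨h1, h2, _⟩ := (hRiff v x).1 hx
        have := h x h1
        omega
      · intro h
        rcases first_spec (sq G v) (u v) with ⟨x, h1, h2, h3, _⟩ | ⟨h1, _⟩
        · exact (h x ((hRiff v x).2 ⟨h1, h2, h3⟩)).elim
        · exact h1
    · intro v x h
      obtain ⟨h1, h2, h3⟩ := (hRiff v x).1 h
      exact first_eq h1 h2 h3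
    · intro v h
      exact first_zero ((hNiff v).1 h)

/-- `1 +` least zero of `x ↦ G(v, x)`, or `0` if there is none. -/
theorem zero_sfun {α : Type} [Fintype α] {G : (α ⊕ Unit → ℕ) → ℤ} (hG : IsPoly G) :
    SFun (fun v => first (fun x => - (sq G v x * sq G v x)) 0) := by
  have h := (hG.mul hG).neg
  obtain ⟨d, hd⟩ := poly_K h
  exact first_sfun d _ h (fun v => K_succ _ _ (hd v)) (fun _ => 0) (SFun.const 0)

theorem ex_iff (g : ℕ → ℤ) : (∃ x, g x = 0) ↔ first (fun x => - (g x * g x)) 0 ≠ 0 := by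
  rcases first_spec (fun x => - (g x * g x)) 0 with ⟨x, _, h2, _, h4⟩ | ⟨h1, h2⟩
  · rw [h4]
    have h2' : 0 ≤ - (g x * g x) := h2
    have : g x * g x = 0 := le_antisymm (by linarith) (mul_self_nonneg _)
    exact ⟨fun _ => by omega, fun _ => ⟨x, mul_self_eq_zero.1 this⟩⟩
  · rw [h2]
    refine ⟨?_, fun h => (h rfl).elim⟩
    rintro ⟨x, hx⟩
    have : - (g x * g x) < 0 := h1 x (by omega)
    rw [hx] at this
    simp at this

theorem ex_dec {α : Type} [Fintype α] {G : (α ⊕ Unit → ℕ) → ℤ} (hG : IsPoly G) :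
    Dec (fun v => ∃ x, sq G v x = 0) :=
  (Dec.eqf (zero_sfun hG) (SFun.const 0)).not.congr fun v => ex_iff (sq G v)

end P345
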