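import Vale.Agent.P345.Defs
import Vale.Agent.P345.Search

/-! Transfer to `Fin n`, main statements. -/

namespace P345

open MvPolynomial

theorem singleFold_iff {n : ℕ} (S : Set (Fin n → ℕ)) : SingleFold S ↔ SF (fun v => v ∈ S) := by
  constructor
  · rintro ⟨m, P, h1, h2⟩
    have key : ∀ (v : Fin n → ℕ) (t : Fin m → ℕ),
        MvPolynomial.eval (fun i => ((Sum.elim v t i : ℕ) : ℤ)) P = 0 ↔ Sol P v t := by
      intro v t
      have : (fun i => ((Sum.elim v t i : ℕ) : ℤ)) =
          Sum.elim (fun i => (v i : ℤ)) (fun j => (t j : ℤ)) := by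
        funext i
        rcases i with i | i <;> rfl
      rw [this]
      exact Iff.rfl
    refine ⟨Fin m, inferInstance, fun w => MvPolynomial.eval (fun i => (w i : ℤ)) P,
      ⟨P, fun _ => rfl⟩, ?_, ?_⟩
    · intro v
      exact (h1 v).trans (exists_congr fun t => (key v t).symm)
    · intro v t t' h h'
      exact h2 v t t' ((key v t).1 h) ((key v t').1 h')
  · rintro ⟨β, _, f, ⟨P, hP⟩, h1, h2⟩
    classical
    let e : β ≃ Fin (Fintype.card β) := Fintype.equivFin β
    have key : ∀ (v : Fin n → ℕ) (w : Fin (Fintype.card β) → ℕ),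
        Sol (rename (Sum.map id e) P) v w ↔ f (Sum.elim v (fun b => w (e b))) = 0 := by
      intro v w
      rw [Sol, eval_rename, hP]
      have : (Sum.elim (fun i => (v i : ℤ)) (fun j => (w j : ℤ)) ∘ (Sum.map id e)) =
          fun i => ((Sum.elim v (fun b => w (e b)) i : ℕ) : ℤ) := by
        funext i
        rcases i with i | i <;> rfl
      rw [this]
    refine ⟨Fintype.card β, rename (Sum.map id e) P, ?_, ?_⟩
    · intro a
      refine (h1 a).trans ?_
      constructor
      · rintro ⟨t, ht⟩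
        refine ⟨fun j => t (e.symm j), (key _ _).2 ?_⟩
        simpa using ht
      · rintro ⟨w, hw⟩
        exact ⟨_, (key _ _).1 hw⟩
    · intro a w w' h h'
      have := h2 a _ _ ((key _ _).1 h) ((key _ _).1 h')
      funext j
      have := congrFun this (e.symm j)
      simpa using this

theorem graph_iff {n : ℕ} (F : (Fin n → ℕ) → ℕ) : SingleFold (graph F) ↔ SFun F := by
  rw [singleFold_iff]
  constructor
  · intro h
    refine (h.reindex (γ := Fin n ⊕ Unit)
      (fun i => Fin.lastCases (Sum.inr ()) (fun j => Sum.inl j) i)).congr fun w => ?_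
    show _ ↔ _ = F _
    simp
  · intro h
    refine (SF.reindex h (γ := Fin (n + 1))
      (Sum.elim (fun i => i.castSucc) (fun _ => Fin.last n))).congr fun w => ?_
    exact Iff.rfl

theorem one_unknown {n : ℕ} (P : MvPolynomial (Fin n ⊕ Fin 1) ℤ) :
    SingleFold {a | ∃ x : Fin 1 → ℕ, Sol P a x} ∧
    SingleFold {a | ¬ ∃ x : Fin 1 → ℕ, Sol P a x} := by
  let e : Fin n ⊕ Fin 1 → Fin n ⊕ Unit := Sum.map id (fun _ => ())
  have hG : IsPoly (fun w : Fin n ⊕ Unit → ℕ =>
      MvPolynomial.eval (fun i => (w i : ℤ)) (rename e P)) := ⟨_, fun _ => rfl⟩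
  have hd := ex_dec hG
  have key : ∀ (a : Fin n → ℕ), (∃ x : Fin 1 → ℕ, Sol P a x) ↔
      ∃ x, sq (fun w : Fin n ⊕ Unit → ℕ =>
        MvPolynomial.eval (fun i => (w i : ℤ)) (rename e P)) a x = 0 := by
    intro a
    have k2 : ∀ (x : Fin 1 → ℕ), Sol P a x ↔ sq (fun w : Fin n ⊕ Unit → ℕ =>
        MvPolynomial.eval (fun i => (w i : ℤ)) (rename e P)) a (x 0) = 0 := by
      intro x
      rw [Sol]
      show _ ↔ MvPolynomial.eval _ (rename e P) = 0
      rw [eval_rename]
      have : (Sum.elim (fun i => (a i : ℤ)) (fun j => (x j : ℤ))) =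
          ((fun i => ((Sum.elim a (fun _ => x 0) i : ℕ) : ℤ)) ∘ e) := by
        funext i
        rcases i with i | i
        · rfl
        · have : i = 0 := Subsingleton.elim _ _
          subst this
          rfl
      rw [this]
    constructor
    · rintro ⟨x, hx⟩
      exact ⟨x 0, (k2 x).1 hx⟩
    · rintro ⟨x, hx⟩
      exact ⟨fun _ => x, (k2 _).2 hx⟩
  exact ⟨(singleFold_iff _).2 (hd.1.congr key),
    (singleFold_iff _).2 (hd.2.congr fun v => not_congr (key v))⟩

theorem bool_closed {n : ℕ} (S T : Set (Fin n → ℕ)) (hS : SingleFold S) (hS' : SingleFold Sᶜ)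
    (hT : SingleFold T) (hT' : SingleFold Tᶜ) :
    SingleFold (S ∩ T) ∧ SingleFold (S ∩ T)ᶜ ∧ SingleFold (S ∪ T) ∧ SingleFold (S ∪ T)ᶜ := by
  have dS : Dec (fun v => v ∈ S) := ⟨(singleFold_iff _).1 hS, (singleFold_iff _).1 hS'⟩
  have dT : Dec (fun v => v ∈ T) := ⟨(singleFold_iff _).1 hT, (singleFold_iff _).1 hT'⟩
  exact ⟨(singleFold_iff _).2 (dS.and dT).1, (singleFold_iff _).2 (dS.and dT).2,
    (singleFold_iff _).2 (dS.or dT).1, (singleFold_iff _).2 (dS.or dT).2⟩

theorem subst_closed {n k : ℕ} (S : Set (Fin k → ℕ)) (hS : SingleFold S)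
    (F : Fin k → (Fin n → ℕ) → ℕ) (hF : ∀ i, SingleFold (graph (F i))) :
    SingleFold {a | (fun i => F i a) ∈ S} :=
  (singleFold_iff _).2 (((singleFold_iff _).1 hS).comp fun i => (graph_iff _).1 (hF i))

theorem comp_closed {n k : ℕ} (G : (Fin k → ℕ) → ℕ) (hG : SingleFold (graph G))
    (F : Fin k → (Fin n → ℕ) → ℕ) (hF : ∀ i, SingleFold (graph (F i))) :
    SingleFold (graph fun a => G (fun i => F i a)) :=
  (graph_iff _).2 (SFun.comp ((graph_iff _).1 hG) fun i => (graph_iff _).1 (hF i))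

end P345
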