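import Vale.Agent.P345.Main

/-! Boolean combinations of polynomial inequalities with one quantified variable. -/

namespace P345

open MvPolynomial

theorem Dec.allFinset {α ι : Type} (s : Finset ι) {S : ι → (α → ℕ) → Prop}
    (h : ∀ i ∈ s, Dec (S i)) : Dec (fun v => ∀ i ∈ s, S i v) := by
  classical
  induction s using Finset.induction_on with
  | empty => exact (Dec.eq0 (IsPoly.const 0)).congr fun v => by simp
  | insert a s _ ih =>
    refine ((h a (Finset.mem_insert_self a s)).and
      (ih fun i hi => h i (Finset.mem_insert_of_mem hi))).congr fun v => ?_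
    rw [Finset.forall_mem_insert]

theorem Dec.allF {α ι : Type} [Fintype ι] {S : ι → (α → ℕ) → Prop}
    (h : ∀ i, Dec (S i)) : Dec (fun v => ∀ i, S i v) :=
  (Dec.allFinset Finset.univ fun i _ => h i).congr fun v => by simp

theorem Dec.exF {α ι : Type} [Fintype ι] {S : ι → (α → ℕ) → Prop}
    (h : ∀ i, Dec (S i)) : Dec (fun v => ∃ i, S i v) :=
  (Dec.allF fun i => (h i).not).not.congr fun v => by push Not; exact Iff.rfl

theorem Dec.constP {α : Type} (p : Prop) : Dec (fun _ : α → ℕ => p) := by
  by_cases hp : p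
  · exact (Dec.eq0 (IsPoly.const 0)).congr fun v => by simp [hp]
  · exact (Dec.eq0 (IsPoly.const 1)).congr fun v => by simp [hp]

/-- Arbitrary Boolean functions of finitely many sets. -/
theorem Dec.bool {α ι : Type} [Finite ι] {S : ι → (α → ℕ) → Prop}
    (h : ∀ i, Dec (S i)) (B : (ι → Prop) → Prop) : Dec (fun v => B (fun i => S i v)) := by
  classical
  have := Fintype.ofFinite ι
  have h1 : ∀ b : ι → Bool, Dec (fun v => B (fun i => b i = true) ∧
      ∀ i, (S i v ↔ b i = true)) := by
    intro b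
    refine (Dec.constP _).and (Dec.allF fun i => ?_)
    cases hb : b i
    · exact (h i).not.congr fun v => by simp
    · exact (h i).congr fun v => by simp
  refine (Dec.exF h1).congr fun v => ?_
  constructor
  · intro hB
    refine ⟨fun i => decide (S i v), ?_, fun i => by simp⟩
    simpa using hB
  · rintro ⟨b, hb, hi⟩
    have : (fun i => S i v) = fun i => b i = true := funext fun i => propext (hi i)
    rw [this]
    exact hb

/-- The first point of a pattern is the start or a sign change of one of the sequences. -/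
theorem cand {ι : Type} {N : ℕ} {h : ι → ℕ → ℤ} {B : (ι → Prop) → Prop} {u x : ℕ}
    (hl : ∀ i, ∀ y, it (h i) u N ≤ y → (0 ≤ h i y ↔ 0 ≤ h i (it (h i) u N)))
    (hux : u ≤ x) (hx : B (fun i => 0 ≤ h i x))
    (hm : ∀ y, u ≤ y → y < x → ¬ B (fun i => 0 ≤ h i y)) :
    x = u ∨ ∃ i, ∃ j < N + 1, x = it (h i) u j := by
  by_contra hc
  push Not at hc
  obtain ⟨hne, hc⟩ := hc
  have hlt : u < x := lt_of_le_of_ne hux (Ne.symm hne)
  apply hm (x - 1) (by omega) (by omega)
  have : (fun i => 0 ≤ h i (x - 1)) = fun i => 0 ≤ h i x := by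
    funext i
    apply propext
    -- the class of `h i` does not change between `x - 1` and `x`
    have key : ∀ j ≤ N, it (h i) u j ≤ x - 1 ∨ (0 ≤ h i (x - 1) ↔ 0 ≤ h i x) := by
      intro j
      induction j with
      | zero =>
        intro _
        left
        show u ≤ x - 1
        omega
      | succ j ih =>
        intro hj
        rcases ih (by omega) with h1 | h1
        · have hs := nxt_spec (h i) (it (h i) u j)
          by_cases h2 : x < it (h i) u (j + 1)
          · right
            exact (hs.2.1 (x - 1) h1 (by show x - 1 < it (h i) u (j + 1); omega)).trans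
              (hs.2.1 x (by omega) h2).symm
          · left
            have := hc i (j + 1) (by omega)
            omega
        · exact Or.inr h1
    rcases key N le_rfl with h1 | h1
    · exact (hl i (x - 1) h1).trans (hl i x (by omega)).symm
    · exact h1
  rw [this]
  exact hx

section

variable {α : Type} [Fintype α] {ι : Type} [Fintype ι]

/-- All sign changes of a polynomial are single-fold functions. -/
theorem it_sfun {G : (α ⊕ Unit → ℕ) → ℤ} (hG : IsPoly G) {d : ℕ} (hK : ∀ v, K (d + 1) (sq G v))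
    {u : (α → ℕ) → ℕ} (hu : SFun u) (j : ℕ) : SFun (fun v => it (sq G v) (u v) j) := by
  obtain ⟨H', hH', hHN⟩ := poly_neg1 hG
  have hKH' : ∀ v, K (d + 1) (sq H' v) := fun v => by
    rw [hHN]
    exact K_neg1 d _ (hK v)
  have hnxt : ∀ F : (α → ℕ) → ℕ, SFun F → SFun (fun v => nxt (sq G v) (F v)) := by
    intro F hF
    have a1 := first_sfun d H' hH' hKH' F hF
    have a2 := first_sfun d G hG hK F hF
    have b1 : SFun (fun v => if first (sq H' v) (F v) = 0 then F v
        else first (sq H' v) (F v) - 1) :=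
      SFun.ite (Dec.eqf a1 (SFun.const 0)) hF a1.pred _ (fun v hv => if_pos hv)
        (fun v hv => if_neg hv)
    have b2 : SFun (fun v => if first (sq G v) (F v) = 0 then F v
        else first (sq G v) (F v) - 1) :=
      SFun.ite (Dec.eqf a2 (SFun.const 0)) hF a2.pred _ (fun v hv => if_pos hv)
        (fun v hv => if_neg hv)
    refine SFun.ite (Dec.at' hG id hF) b1 b2 _ ?_ ?_
    · intro v hv
      have hv' : 0 ≤ sq G v (F v) := hv
      rw [nxt, if_pos hv', hHN]
    · intro v hv
      have hv' : ¬ 0 ≤ sq G v (F v) := hv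
      rw [nxt, if_neg hv']
  induction j with
  | zero => exact hu
  | succ j ihj => exact hnxt _ ihj

theorem pattern {G : ι → (α ⊕ Unit → ℕ) → ℤ} (hG : ∀ i, IsPoly (G i))
    (B : (ι → Prop) → Prop) :
    Dec (fun v => ∃ x, B (fun i => 0 ≤ sq (G i) v x)) ∧
    ∀ F : (α → ℕ) → ℕ, (∀ v, IsLeast {x | B (fun i => 0 ≤ sq (G i) v x)} (F v) ∨
      ((∀ x, ¬ B (fun i => 0 ≤ sq (G i) v x)) ∧ F v = 0)) → SFun F := by
  classical
  choose d hd using fun i => poly_K (hG i)
  set M := ∑ i, d i with hM
  have hdM : ∀ i, d i ≤ M := fun i => Finset.single_le_sum (fun _ _ => Nat.zero_le _)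
    (Finset.mem_univ i)
  have hK : ∀ i v, K (M + 1) (sq (G i) v) := fun i v => K_mono (by have := hdM i; omega) (hd i v)
  set N := M + 2 with hN
  have hl : ∀ v i, ∀ y, it (sq (G i) v) 0 N ≤ y →
      (0 ≤ sq (G i) v y ↔ 0 ≤ sq (G i) v (it (sq (G i) v) 0 N)) := fun v i =>
    it_last (d := M + 1) (hK i v) 0
  have hit : ∀ i j, SFun (fun v => it (sq (G i) v) 0 j) := fun i j =>
    it_sfun (hG i) (hK i) (SFun.const 0) j
  -- truth of the pattern at a single-fold point
  have hat : ∀ {γ : Type} (e : α → γ) {F : (γ → ℕ) → ℕ}, SFun F →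
      Dec (fun w : γ → ℕ => B (fun i => 0 ≤ sq (G i) (fun a => w (e a)) (F w))) :=
    fun e F hF => Dec.bool (fun i => Dec.at' (hG i) e hF) B
  have hcand : ∀ v x, B (fun i => 0 ≤ sq (G i) v x) →
      (∀ y < x, ¬ B (fun i => 0 ≤ sq (G i) v y)) →
      x = 0 ∨ ∃ i, ∃ j < N + 1, x = it (sq (G i) v) 0 j := fun v x h1 h2 =>
    cand (hl v) (Nat.zero_le x) h1 fun y _ hy => h2 y hy
  have hex : ∀ v, (∃ x, B (fun i => 0 ≤ sq (G i) v x)) ↔
      (B (fun i => 0 ≤ sq (G i) v 0) ∨ ∃ i, ¬ ∀ j < N + 1,
        ¬ B (fun i' => 0 ≤ sq (G i') v (it (sq (G i) v) 0 j))) := by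
    intro v
    constructor
    · intro h
      have h1 := Nat.find_spec h
      have h2 : ∀ y < Nat.find h, ¬ B (fun i => 0 ≤ sq (G i) v y) := fun y hy => Nat.find_min h hy
      rcases hcand v _ h1 h2 with h3 | ⟨i, j, hj, h3⟩
      · left
        rwa [h3] at h1
      · right
        refine ⟨i, fun h4 => h4 j hj ?_⟩
        rwa [h3] at h1
    · rintro (h | ⟨i, h⟩)
      · exact ⟨0, h⟩
      · push Not at h
        obtain ⟨j, _, hj⟩ := h
        exact ⟨_, hj⟩
  have hdec : Dec (fun v => ∃ x, B (fun i => 0 ≤ sq (G i) v x)) := by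
    refine (((hat id (SFun.const 0)).or (Dec.exF fun i =>
      (Dec.all (N + 1) fun j _ => (hat id (hit i j)).not).not))).congr fun v => ?_
    exact hex v
  refine ⟨hdec, fun F hF => ?_⟩
  -- graph of the least element function
  have hX : SFun (fun w : α ⊕ Unit → ℕ => w (Sum.inr ())) := SFun.proj _
  have hV : ∀ i j, SFun (fun w : α ⊕ Unit → ℕ => it (sq (G i) (fun a => w (Sum.inl a))) 0 j) :=
    fun i j => (hit i j).reindex Sum.inl
  have hleast : Dec (fun w : α ⊕ Unit → ℕ =>
      B (fun i => 0 ≤ sq (G i) (fun a => w (Sum.inl a)) (w (Sum.inr ()))) ∧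
      ((0 < w (Sum.inr ()) → ¬ B (fun i => 0 ≤ sq (G i) (fun a => w (Sum.inl a)) 0)) ∧
      ∀ i, ∀ j < N + 1, it (sq (G i) (fun a => w (Sum.inl a))) 0 j < w (Sum.inr ()) →
        ¬ B (fun i' => 0 ≤ sq (G i') (fun a => w (Sum.inl a))
          (it (sq (G i) (fun a => w (Sum.inl a))) 0 j)))) := by
    refine (hat Sum.inl hX).and (Dec.and ?_ (Dec.allF fun i => Dec.all (N + 1) fun j _ => ?_))
    · exact (Dec.lt (SFun.const 0) hX).imp (hat Sum.inl (SFun.const 0)).not
    · exact (Dec.lt (hV i j) hX).imp (hat Sum.inl (hV i j)).not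
  have hnone : Dec (fun w : α ⊕ Unit → ℕ =>
      (¬ ∃ x, B (fun i => 0 ≤ sq (G i) (fun a => w (Sum.inl a)) x)) ∧ w (Sum.inr ()) = 0) := by
    refine Dec.and ?_ (Dec.eqf hX (SFun.const 0))
    exact ⟨hdec.not.1.reindex Sum.inl, hdec.not.2.reindex Sum.inl⟩
  refine (hleast.or hnone).1.congr fun w => ?_
  show w (Sum.inr ()) = F (fun a => w (Sum.inl a)) ↔ _
  generalize (fun a => w (Sum.inl a)) = v
  generalize w (Sum.inr ()) = y
  constructor
  · rintro rfl
    rcases hF v with h | ⟨h1, h2⟩
    · left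
      have hm : ∀ t < F v, ¬ B (fun i => 0 ≤ sq (G i) v t) := fun t ht hB =>
        absurd (h.2 hB) (by omega)
      exact ⟨h.1, fun h0 => hm 0 h0, fun i j _ h0 => hm _ h0⟩
    · right
      exact ⟨fun ⟨x, hx⟩ => h1 x hx, h2⟩
  · rintro (⟨h1, h2, h3⟩ | ⟨h1, h2⟩)
    · rcases hF v with h | ⟨h4, _⟩
      · have hle : F v ≤ y := h.2 h1
        by_contra hne
        have hlt : F v < y := by omega
        have hm : ∀ t < F v, ¬ B (fun i => 0 ≤ sq (G i) v t) := fun t ht hB =>
          absurd (h.2 hB) (by omega)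
        rcases hcand v (F v) h.1 hm with h5 | ⟨i, j, hj, h5⟩
        · apply h2 (by omega)
          have := h.1
          rw [h5] at this
          exact this
        · apply h3 i j hj (by rw [← h5]; exact hlt)
          have := h.1
          rw [h5] at this
          exact this
      · exact (h4 y h1).elim
    · rcases hF v with h | ⟨_, h4⟩
      · exact (h1 ⟨_, h.1⟩).elim
      · rw [h2, h4]

end

end P345
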